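import Vale.Agent.P224.R2.H728.T0r
import Vale.Agent.P224.R2.H925.Mom1

/-!
The third moments `E x z z` are small because the position is spread.
-/

namespace Vale.Agent.P224.R2.H807

open MeasureTheory Set Filter Function Real Finset Matrix Vale.Agent.P224.R2.H728
open scoped RealInnerProductSpace

set_option linter.unusedSectionVars false

/-- Bernoulli's inequality in the form of a weighted mean -/
lemma le_mean_pow {k : ℕ} (hk : 1 ≤ k) {t : ℝ} (ht : 0 ≤ t) :
    t ≤ (1 - 1 / (2 * k)) + t ^ (2 * k) / (2 * k) := by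
  have hk0 : (0 : ℝ) < 2 * k := by
    have : (1 : ℝ) ≤ k := by exact_mod_cast hk
    linarith
  have h1 := one_add_mul_le_pow (a := t - 1) (by linarith) (2 * k)
  push_cast at h1
  have h2 : (1 + (t - 1)) = t := by ring
  rw [h2] at h1
  have h3 : t ≤ (2 * (k : ℝ) - 1 + t ^ (2 * k)) / (2 * k) := by
    rw [le_div_iff₀ hk0]
    nlinarith
  have h4 : (2 * (k : ℝ) - 1 + t ^ (2 * k)) / (2 * k)
      = (1 - 1 / (2 * k)) + t ^ (2 * k) / (2 * k) := by
    field_simp
  linarith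

lemma abs_le_mean {k : ℕ} (hk : 1 ≤ k) {δ s : ℝ} (hδ : 0 < δ) :
    |s| ≤ δ * (1 - 1 / (2 * k)) + δ / (2 * k) / δ ^ (2 * k) * s ^ (2 * k) := by
  have h1 := le_mean_pow hk (t := |s| / δ) (by positivity)
  have h2 : (|s| / δ) ^ (2 * k) = s ^ (2 * k) / δ ^ (2 * k) := by
    rw [div_pow, Even.pow_abs (even_two_mul k)]
  rw [h2] at h1
  have h3 := mul_le_mul_of_nonneg_left h1 hδ.le
  have h4 : δ * (|s| / δ) = |s| := by field_simp
  rw [h4] at h3
  refine h3.trans (le_of_eq ?_)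
  ring

section

variable {ι Ω : Type*} [Fintype ι] [DecidableEq ι] [MeasurableSpace Ω] {μ : Measure Ω}
  {m : ℝ} {x N : ι → Ω → ℝ} {j : ι → ℝ}

/-- the bound of `E |<x,v>| |z|^2` -/
noncomputable def Bl (k : ℕ) (δ M ρ H : ℝ) : ℝ :=
  δ * (1 - 1 / (2 * k)) * H + δ / (2 * k) / δ ^ (2 * k) * M * (1 + ρ) ^ 2

/-- the square of the deviation is bounded -/
lemma sq_z_le (h : T0Data μ m x N) {ρ : ℝ} (hρ : 0 ≤ ρ) (hj : ∀ a, |j a| ≤ ρ) (ω : Ω) :
    ∑ b, zd j x N b ω * zd j x N b ω ≤ (1 + ρ) ^ 2 := by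
  have hj2 : ∀ a, j a ^ 2 ≤ ρ ^ 2 := fun a => by
    rw [← sq_abs]
    exact pow_le_pow_left₀ (abs_nonneg _) (hj a) 2
  have k1 : ∑ b, (j b * x b ω) ^ 2 ≤ ρ ^ 2 := by
    calc ∑ b, (j b * x b ω) ^ 2 ≤ ∑ b, ρ ^ 2 * x b ω ^ 2 := Finset.sum_le_sum fun b _ => by
          rw [mul_pow]
          exact mul_le_mul_of_nonneg_right (hj2 b) (sq_nonneg _)
      _ = ρ ^ 2 := by rw [← Finset.mul_sum, h.ux, mul_one]
  have k2 : |∑ b, N b ω * (j b * x b ω)| ≤ ρ := by
    refine abs_le_of_sq_le_sq ?_ hρ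
    refine (Finset.sum_mul_sq_le_sq_mul_sq Finset.univ (fun b => N b ω)
      fun b => j b * x b ω).trans ?_
    rw [h.uN, one_mul]
    exact k1
  have k3 : ∑ b, zd j x N b ω * zd j x N b ω
      = ∑ b, N b ω ^ 2 - 2 * (∑ b, N b ω * (j b * x b ω)) + ∑ b, (j b * x b ω) ^ 2 := by
    rw [Finset.mul_sum, ← Finset.sum_sub_distrib, ← Finset.sum_add_distrib]
    refine Finset.sum_congr rfl fun b _ => ?_
    simp only [zd]
    ring
  rw [k3, h.uN]
  have := (abs_le.1 k2).1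
  nlinarith

lemma bS (h : T0Data μ m x N) (j : ι → ℝ) : BM fun ω => ∑ b, zd j x N b ω * zd j x N b ω :=
  BM.sum _ fun b _ => (h.bzd j b).mul (h.bzd j b)

lemma hh_int (h : T0Data μ m x N) (j : ι → ℝ) :
    hh μ (diagonal j) x N = ∫ ω, ∑ b, zd j x N b ω * zd j x N b ω ∂μ := by
  have := h.prob
  have bz := h.bzd j
  rw [h.hh_sum]
  unfold m2
  rw [← integral_finsetSum _ fun b _ => ((bz b).mul (bz b)).int]

lemma BM.abs {f : Ω → ℝ} (hf : BM f) : BM fun ω => |f ω| := by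
  obtain ⟨h1, C, h2⟩ := hf
  exact ⟨h1.abs, C, fun ω => by rw [abs_abs]; exact h2 ω⟩

/-- **the weighted first moment** -/
theorem lin_le (h : T0Data μ m x N) {ρ : ℝ} (hρ : 0 ≤ ρ) (hj : ∀ a, |j a| ≤ ρ) {k : ℕ}
    (hk : 1 ≤ k) {δ M : ℝ} (hδ : 0 < δ) {v : ι → ℝ}
    (hM : ∫ ω, (∑ a, v a * x a ω) ^ (2 * k) ∂μ ≤ M) :
    ∫ ω, |∑ a, v a * x a ω| * ∑ b, zd j x N b ω * zd j x N b ω ∂μ
      ≤ Bl k δ M ρ (hh μ (diagonal j) x N) := by
  have := h.prob
  have hS := bS h j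
  have hl : BM fun ω => ∑ a, v a * x a ω := BM.sum _ fun a _ => (h.bx a).const_mul _
  have hk0 : (0 : ℝ) < 2 * k := by
    have : (1 : ℝ) ≤ k := by exact_mod_cast hk
    linarith
  have hc : 0 ≤ δ / (2 * k) / δ ^ (2 * k) := by positivity
  have e1 : Bl k δ (∫ ω, (∑ a, v a * x a ω) ^ (2 * k) ∂μ) ρ (hh μ (diagonal j) x N)
      = ∫ ω, (δ * (1 - 1 / (2 * k)) * (∑ b, zd j x N b ω * zd j x N b ω)
        + δ / (2 * k) / δ ^ (2 * k) * (1 + ρ) ^ 2 * (∑ a, v a * x a ω) ^ (2 * k)) ∂μ := by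
    rw [integral_add (hS.const_mul _).int ((hl.pow _).const_mul _).int, integral_const_mul,
      integral_const_mul, ← hh_int h j]
    unfold Bl
    ring
  have e2 : Bl k δ (∫ ω, (∑ a, v a * x a ω) ^ (2 * k) ∂μ) ρ (hh μ (diagonal j) x N)
      ≤ Bl k δ M ρ (hh μ (diagonal j) x N) := by
    unfold Bl
    have := mul_le_mul_of_nonneg_right (mul_le_mul_of_nonneg_left hM hc) (sq_nonneg (1 + ρ))
    linarith
  refine le_trans ?_ e2
  rw [e1]
  refine integral_mono ((BM.abs hl).mul hS).int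
    (((hS.const_mul _).add ((hl.pow _).const_mul _))).int fun ω => ?_
  have k1 := abs_le_mean hk (s := ∑ a, v a * x a ω) hδ
  have k2 := sq_z_le h hρ hj ω
  have k3 : 0 ≤ ∑ b, zd j x N b ω * zd j x N b ω := Finset.sum_nonneg fun b _ => mul_self_nonneg _
  have k4 : 0 ≤ (∑ a, v a * x a ω) ^ (2 * k) := (even_two_mul k).pow_nonneg _
  have k5 := mul_le_mul_of_nonneg_right k1 k3
  have k6 := mul_le_mul_of_nonneg_left k2 (mul_nonneg hc k4)
  simp only
  nlinarith

/-- linear functionals of the third moments `E x z z` as integrals -/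
lemma s3_m3 (h : T0Data μ m x N) (j : ι → ℝ) (T : ι → ι → ι → ℝ) :
    (s3 fun a b c => T a b c * m3 μ x (zd j x N) (zd j x N) a b c)
      = ∫ ω, (s3 fun a b c => T a b c * (x a ω * zd j x N b ω * zd j x N c ω)) ∂μ := by
  have := h.prob
  have bz := h.bzd j
  set z := zd j x N with hz
  unfold s3 m3
  rw [integral_finsetSum _ fun a _ => (BM.sum _ fun b _ => BM.sum _ fun c _ =>
    (((h.bx a).mul (bz b)).mul (bz c)).const_mul (T a b c)).int]
  refine Finset.sum_congr rfl fun a _ => ?_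
  rw [integral_finsetSum _ fun b _ => (BM.sum _ fun c _ =>
    (((h.bx a).mul (bz b)).mul (bz c)).const_mul (T a b c)).int]
  refine Finset.sum_congr rfl fun b _ => ?_
  rw [integral_finsetSum _ fun c _ => ((((h.bx a).mul (bz b)).mul (bz c)).const_mul (T a b c)).int]
  refine Finset.sum_congr rfl fun c _ => ?_
  rw [integral_const_mul]

/-- a rank one trilinear form -/
lemma s3_rank (v w : ι → ℝ) (x z : ι → ℝ) :
    (s3 fun a b c => (v a * w b * w c) * (x a * z b * z c))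
      = (∑ a, v a * x a) * (∑ b, w b * z b) ^ 2 := by
  unfold s3
  rw [sq, Finset.sum_mul_sum, Finset.sum_mul]
  refine Finset.sum_congr rfl fun a _ => ?_
  rw [Finset.mul_sum]
  refine Finset.sum_congr rfl fun b _ => ?_
  rw [Finset.mul_sum]
  exact Finset.sum_congr rfl fun c _ => by ring

/-- **the norm of the third moments `E x z z`** -/
theorem xzz_sq_le (h : T0Data μ m x N) {B : ℝ}
    (hB : ∀ v : ι → ℝ, ∑ a, v a ^ 2 = 1 →
      ∫ ω, |∑ a, v a * x a ω| * ∑ b, zd j x N b ω * zd j x N b ω ∂μ ≤ B) :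
    (s3 fun a b c => m3 μ x (zd j x N) (zd j x N) a b c ^ 2) ≤ hh μ (diagonal j) x N * B := by
  have := h.prob
  have bz := h.bzd j
  have hS := bS h j
  set Y := m3 μ x (zd j x N) (zd j x N) with hY
  have e1 : (s3 fun a b c => Y a b c ^ 2) = s3 fun a b c => Y a b c * Y a b c :=
    s3_congr fun a b c => sq _
  rw [e1, hY, s3_m3 h j, ← hY, hh_int h j, ← integral_mul_const]
  have bI : BM fun ω => s3 fun a b c => Y a b c * (x a ω * zd j x N b ω * zd j x N c ω) :=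
    BM.sum _ fun a _ => BM.sum _ fun b _ => BM.sum _ fun c _ =>
      (((h.bx a).mul (bz b)).mul (bz c)).const_mul (Y a b c)
  have bI2 : BM fun ω => (∑ b, zd j x N b ω * zd j x N b ω) * B := by
    simpa [mul_comm] using hS.const_mul B
  refine integral_mono bI.int bI2.int fun ω' => ?_
  simp only
  -- the pairing at a fixed point
  have e2 : (s3 fun a b c => Y a b c * (x a ω' * zd j x N b ω' * zd j x N c ω'))
      = ∫ ω, (∑ a, x a ω' * x a ω) * (∑ b, zd j x N b ω' * zd j x N b ω) ^ 2 ∂μ := by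
    have k1 : (s3 fun a b c => Y a b c * (x a ω' * zd j x N b ω' * zd j x N c ω'))
        = s3 fun a b c => (x a ω' * zd j x N b ω' * zd j x N c ω') * Y a b c :=
      s3_congr fun a b c => mul_comm _ _
    rw [k1, hY, s3_m3 h j]
    refine integral_congr_ae (Eventually.of_forall fun ω => ?_)
    exact s3_rank (fun a => x a ω') (fun b => zd j x N b ω') (fun a => x a ω)
      fun b => zd j x N b ω
  rw [e2]
  have hl : BM fun ω => ∑ a, x a ω' * x a ω := BM.sum _ fun a _ => (h.bx a).const_mul _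
  have hz : BM fun ω => ∑ b, zd j x N b ω' * zd j x N b ω :=
    BM.sum _ fun a _ => (bz a).const_mul _
  have k2 : 0 ≤ ∑ b, zd j x N b ω' * zd j x N b ω' :=
    Finset.sum_nonneg fun b _ => mul_self_nonneg _
  have k3 : ∫ ω, (∑ a, x a ω' * x a ω) * (∑ b, zd j x N b ω' * zd j x N b ω) ^ 2 ∂μ
      ≤ ∫ ω, (∑ b, zd j x N b ω' * zd j x N b ω')
        * (|∑ a, x a ω' * x a ω| * ∑ b, zd j x N b ω * zd j x N b ω) ∂μ := by
    refine integral_mono (hl.mul (hz.pow 2)).int (((BM.abs hl).mul hS).const_mul _).int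
      fun ω => ?_
    simp only
    have q1 := Finset.sum_mul_sq_le_sq_mul_sq Finset.univ (fun b => zd j x N b ω')
      fun b => zd j x N b ω
    have q2 : ∀ τ : Ω, ∑ b, zd j x N b τ ^ 2 = ∑ b, zd j x N b τ * zd j x N b τ := fun τ =>
      Finset.sum_congr rfl fun b _ => sq _
    rw [q2, q2] at q1
    have q3 := mul_le_mul_of_nonneg_left q1 (abs_nonneg (∑ a, x a ω' * x a ω))
    have q4 := mul_le_mul_of_nonneg_right (le_abs_self (∑ a, x a ω' * x a ω))
      (sq_nonneg (∑ b, zd j x N b ω' * zd j x N b ω))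
    calc _ ≤ _ := q4
      _ ≤ _ := q3
      _ = _ := by ring
  refine k3.trans ?_
  rw [integral_const_mul]
  exact mul_le_mul_of_nonneg_left (hB _ (h.ux ω')) k2

/-- the norm of the third moments `E x z z`, with a factor -/
theorem xzz_le (h : T0Data μ m x N) {B : ℝ}
    (hB : ∀ v : ι → ℝ, ∑ a, v a ^ 2 = 1 →
      ∫ ω, |∑ a, v a * x a ω| * ∑ b, zd j x N b ω * zd j x N b ω ∂μ ≤ B)
    {θ : ℝ} (hθ0 : 0 ≤ θ) (hθ : B ≤ θ ^ 2 * hh μ (diagonal j) x N) :
    √(s3 fun a b c => m3 μ x (zd j x N) (zd j x N) a b c ^ 2) ≤ θ * hh μ (diagonal j) x N := by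
  have hH := h.hh_nonneg (diagonal j)
  rw [← Real.sqrt_sq (mul_nonneg hθ0 hH)]
  refine Real.sqrt_le_sqrt ((xzz_sq_le h hB).trans ?_)
  calc hh μ (diagonal j) x N * B
      ≤ hh μ (diagonal j) x N * (θ ^ 2 * hh μ (diagonal j) x N) :=
        mul_le_mul_of_nonneg_left hθ hH
    _ = _ := by ring

/-- the trivial bound -/
theorem xzz_le_one (h : T0Data μ m x N) (j : ι → ℝ) :
    √(s3 fun a b c => m3 μ x (zd j x N) (zd j x N) a b c ^ 2) ≤ 1 * hh μ (diagonal j) x N := by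
  rw [one_mul]
  have hH := h.hh_nonneg (diagonal j)
  have h1 := h.XY_le j (m3 μ x (zd j x N) (zd j x N))
  set S := s3 fun a b c => m3 μ x (zd j x N) (zd j x N) a b c ^ 2 with hS
  have hS0 : 0 ≤ S := s3_nonneg fun a b c => sq_nonneg _
  have e1 : (s3 fun a b c => m3 μ x (zd j x N) (zd j x N) a b c
      * m3 μ x (zd j x N) (zd j x N) a b c) = S := s3_congr fun a b c => (sq _).symm
  rw [e1, abs_of_nonneg hS0] at h1
  rcases (Real.sqrt_nonneg S).eq_or_lt with h2 | h2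
  · rw [← h2]; exact hH
  · have h3 : √S * √S ≤ √S * hh μ (diagonal j) x N := by
      rw [Real.mul_self_sqrt hS0]; exact h1
    exact le_of_mul_le_mul_left h3 h2

/-- the pairing of the two tensors of third moments -/
theorem XY_le_th {θ : ℝ} (hY : √(s3 fun a b c => m3 μ x (zd j x N) (zd j x N) a b c ^ 2)
      ≤ θ * hh μ (diagonal j) x N) (T : ι → ι → ι → ℝ) :
    |s3 fun a b c => T a b c * m3 μ x (zd j x N) (zd j x N) a b c|
      ≤ √(s3 fun a b c => T a b c ^ 2) * (θ * hh μ (diagonal j) x N) :=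
  (s3_cs_abs _ _).trans (mul_le_mul_of_nonneg_left hY (Real.sqrt_nonneg _))

/-- the trace of `E N x x` -/
lemma uu_le (h : T0Data μ m x N) (hm : 0 ≤ m) :
    uu μ N / (m + 2) ≤ s3 fun a b c => m3 μ N x x a b c ^ 2 := by
  have hm2 : 0 < m + 2 := by positivity
  have tr : ∀ a, ∑ b, m3 μ N x x a b b = m1 μ N a := by
    intro a
    have h1 := h.trZ (fun _ => 0) a
    rw [← h1]
    refine Finset.sum_congr rfl fun b _ => ?_
    unfold m3
    refine integral_congr_ae (Eventually.of_forall fun ω => ?_)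
    simp [zd]
  unfold uu s3
  rw [div_le_iff₀ hm2, Finset.sum_mul]
  refine Finset.sum_le_sum fun a _ => ?_
  rw [← tr a]
  have k1 : (∑ b, m3 μ N x x a b b) ^ 2 ≤ (m + 2) * ∑ b, m3 μ N x x a b b ^ 2 := by
    have := Finset.sum_mul_sq_le_sq_mul_sq Finset.univ (fun _ : ι => (1 : ℝ))
      fun b => m3 μ N x x a b b
    simp only [one_mul, one_pow, Finset.sum_const, nsmul_eq_mul, mul_one] at this
    rw [h.card_eq] at this
    exact this
  have k2 : ∑ b, m3 μ N x x a b b ^ 2 ≤ ∑ b, ∑ c, m3 μ N x x a b c ^ 2 :=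
    Finset.sum_le_sum fun b _ =>
      Finset.single_le_sum (f := fun c => m3 μ N x x a b c ^ 2) (fun c _ => sq_nonneg _)
        (Finset.mem_univ b)
  nlinarith

section th

variable (h : T0Data μ m x N) (hm : 0 ≤ m) {θ : ℝ}
  (hY : √(s3 fun a b c => m3 μ x (zd j x N) (zd j x N) a b c ^ 2)
    ≤ θ * hh μ (diagonal j) x N)
include h hm hY

/-- the sharp form of the norms of the third moments of the position and of the normal -/
theorem third_le : (m + 2) * nX μ x ^ 2 + 2 * (s3 fun a b c => m3 μ N x x a b c ^ 2)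
    ≤ 2 * (kq m * hh μ (diagonal j) x N + uu μ N / (m + 2))
      + 2 * nX μ x * (θ * hh μ (diagonal j) x N)
      + 4 / (m + 1) * |∑ b, m1 μ N b * xi μ j x b| := by
  have hm1 : m + 1 ≠ 0 := by positivity
  have e2 := h.third_eq hm1 j
  have e3 := h.Z_sq_le hm j
  have e4 : 0 ≤ s3 fun a b c => (j a - j b) ^ 2 * m3 μ x x x a b c ^ 2 :=
    s3_nonneg fun a b c => by positivity
  have e5 := (abs_le.1 (XY_le_th hY (m3 μ x x x))).1
  have e6 := neg_abs_le (∑ b, m1 μ N b * xi μ j x b)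
  have e7 : 0 ≤ 4 / (m + 1) := by positivity
  have e8 := mul_le_mul_of_nonneg_left e6 e7
  have e9 : nX μ x ^ 2 = s3 fun a b c => m3 μ x x x a b c ^ 2 :=
    Real.sq_sqrt (s3_nonneg fun a b c => sq_nonneg _)
  change -(nX μ x * _) ≤ _ at e5
  rw [e9]
  nlinarith

/-- **the norm of the third moments of the position** -/
theorem nX_sharp : (m + 2) * nX μ x ^ 2
    ≤ 2 * kq m * hh μ (diagonal j) x N + 2 * nX μ x * (θ * hh μ (diagonal j) x N)
      + 4 / (m + 1) * |∑ b, m1 μ N b * xi μ j x b| := by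
  have h1 := third_le h hm hY
  have h2 := uu_le h hm
  linarith

/-- the lower bound of the mean of `(p - t)^2 s` -/
theorem pts_ge_th :
    -(2 * kq m * hh μ (diagonal j) x N + 2 * nX μ x * (θ * hh μ (diagonal j) x N)
        + 4 / (m + 1) * |∑ b, m1 μ N b * xi μ j x b|)
      ≤ ∫ q, (ip N x q.1 q.2 - ip x N q.1 q.2) ^ 2 * ip x x q.1 q.2 ∂(μ.prod μ) := by
  have hm1 : m + 1 ≠ 0 := by positivity
  have e1 := h.E_pts hm1
  have h1 := third_le h hm hY
  have hu0 : 0 ≤ uu μ N := Finset.sum_nonneg fun a _ => sq_nonneg _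
  have e0 : nX μ x ^ 2 = s3 fun a b c => m3 μ x x x a b c ^ 2 :=
    Real.sq_sqrt (s3_nonneg fun a b c => sq_nonneg _)
  rw [e1]
  have e9 : ∑ a, ∑ b, ∑ c, m3 μ x x x a b c ^ 2 = s3 fun a b c => m3 μ x x x a b c ^ 2 := rfl
  have e10 : ∑ a, ∑ b, ∑ c, m3 μ N x x a b c ^ 2 = s3 fun a b c => m3 μ N x x a b c ^ 2 := rfl
  rw [e9, e10, ← e0]
  change _ ≤ -((m + 2) * nX μ x ^ 2)
    - 2 * (s3 fun a b c => m3 μ N x x a b c ^ 2) + 2 * uu μ N / (m + 1)
  have e11 : uu μ N / (m + 2) ≤ uu μ N / (m + 1) :=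
    div_le_div_of_nonneg_left hu0 (by positivity) (by linarith)
  have e12 : 2 * uu μ N / (m + 1) = 2 * (uu μ N / (m + 1)) := by ring
  rw [e12]
  linarith

/-- the norm of the third moments of the normal -/
theorem Nxx_le_th : 2 * (s3 fun a b c => m3 μ N x x a b c ^ 2)
    ≤ 2 * (kq m * hh μ (diagonal j) x N + uu μ N / (m + 2))
      + 2 * nX μ x * (θ * hh μ (diagonal j) x N)
      + 4 / (m + 1) * |∑ b, m1 μ N b * xi μ j x b| - (m + 2) * nX μ x ^ 2 := by
  have h1 := third_le h hm hY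
  linarith

end th

/-- the moments in a basis -/
theorem mom_basis {X E : Type*} [NormedAddCommGroup E] [InnerProductSpace ℝ E]
    [TopologicalSpace X] [MeasurableSpace X] [CompactSpace X] [BorelSpace X]
    {μ : Measure X} [IsProbabilityMeasure μ] {m : ℕ} {p n : X → E}
    (h : Vale.Agent.P224.R2.H470.OneP μ m p n) (b : OrthonormalBasis ι ℝ E) (k : ℕ) (v : ι → ℝ)
    (hv : ∑ a, v a ^ 2 = 1) :
    ∫ w, (∑ a, v a * ⟪p w, b a⟫) ^ (2 * k) ∂μ
      ≤ ∏ i ∈ Finset.range k, (2 * (i : ℝ) + 1) / (m + 2 * i + 1) := by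
  have h1 := Vale.Agent.P224.R2.H925.mom_even h (∑ a, v a • b a) k
  have e1 : ∀ w, ∑ a, v a * ⟪p w, b a⟫ = ⟪p w, ∑ a, v a • b a⟫ := by
    intro w
    rw [inner_sum]
    exact Finset.sum_congr rfl fun a _ => by rw [real_inner_smul_right]
  have e2 : ‖∑ a, v a • b a‖ = 1 := by
    have k1 : ‖∑ a, v a • b a‖ ^ 2 = 1 := by
      rw [← real_inner_self_eq_norm_sq, b.orthonormal.inner_sum v v Finset.univ, ← hv]
      exact Finset.sum_congr rfl fun a _ => by simp [sq]
    nlinarith [norm_nonneg (∑ a, v a • b a)]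
  simp only [e1]
  rw [e2, one_pow, mul_one] at h1
  have e3 : μ.real univ = 1 := by simp
  rw [e3, mul_one] at h1
  exact h1

end

end Vale.Agent.P224.R2.H807
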