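import Vale.Agent.P224.R2.H728.Nb
import Vale.Agent.P224.R2.H807.Th

/-!
The lower bound of the defect of the law on a cell, with the small factor of the third moments
and with the bound of the third moments of the position.
-/

namespace Vale.Agent.P224.R2.H807

open MeasureTheory Set Filter Function Real Finset Matrix Vale.Agent.P224.R2.H582
  Vale.Agent.P224.R2.H728

set_option linter.unusedSectionVars false

/-- the coefficient of the defect on a cell, `P` is the factor of the cross term -/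
noncomputable def cP (m W0 W1 E w pen δ θ P : ℝ) : ℝ :=
  (W0 + w) * (2 * (1 - δ) / (m + 2)) - W1 * pen - 2 * E * kq m - 2 * θ * P

/-- the coefficient of the norm of the mean normal on a cell -/
noncomputable def aP (m Γ W1 E ρ ω r s η P : ℝ) : ℝ :=
  (Γ + 2 * E / (m + 2)) * s + (W1 + E) * Gc m * (2 * ω * (r + s / (m + 2)) + ρ * η)
    + P * (Gc m * (ρ * ω))

/-- the completed square -/
lemma loss_sq {W a t B X b : ℝ} (ha : 0 < a) (hb : W ^ 2 ≤ b * a) (hb0 : 0 ≤ b)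
    (ht0 : 0 ≤ t) (htB : t ≤ B) : W * t * X - a * X ^ 2 ≤ b / 4 * B * t - 0 := by
  have p9 : 0 ≤ a * X ^ 2 - (W * t) * X + b / 4 * t ^ 2 := by
    refine sq_complete ha ?_
    have k2 := mul_le_mul_of_nonneg_left hb (sq_nonneg t)
    nlinarith
  have p10 : b / 4 * t ^ 2 ≤ b / 4 * B * t := by
    rw [sq, ← mul_assoc]
    have : b / 4 * t ≤ b / 4 * B := mul_le_mul_of_nonneg_left htB (by positivity)
    exact mul_le_mul_of_nonneg_right this ht0
  linarith

/-- the tangent -/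
lemma loss_lin {W a t n X X0 : ℝ} (ha : 0 ≤ a) (hXn : X ≤ n)
    (hX0 : 2 * a * X0 ≤ W * t) :
    W * t * X - a * X ^ 2 ≤ W * n * t - a * X0 * (2 * n - X0) := by
  have h1 : 0 ≤ a * (X - X0) ^ 2 := mul_nonneg ha (sq_nonneg _)
  have h2 : (W * t - 2 * a * X0) * X ≤ (W * t - 2 * a * X0) * n :=
    mul_le_mul_of_nonneg_left hXn (by linarith)
  nlinarith

section

variable {ι Ω : Type*} [Fintype ι] [DecidableEq ι] [MeasurableSpace Ω] {μ : Measure Ω}
  {m : ℝ} {x N : ι → Ω → ℝ} {j : ι → ℝ}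

section low

variable (h : T0Data μ m x N) (hm : 0 < m) {θ : ℝ}
  (hY : √(s3 fun a b c => m3 μ x (zd j x N) (zd j x N) a b c ^ 2)
    ≤ θ * hh μ (diagonal j) x N)
include h hm hY

lemma Qpts_ge_th :
    -(2 * kq m * hh μ (diagonal j) x N + 2 * nX μ x * (θ * hh μ (diagonal j) x N)
        + 4 / (m + 1) * |∑ b, m1 μ N b * xi μ j x b|) ≤ Qpts μ m x N := by
  rw [← h.Qpts_eq (by positivity)]
  exact pts_ge_th h hm.le hY

lemma Qcss_ge_th :
    (m + 4) ^ 2 / 4 * nX μ x ^ 2 - (2 * (kq m * hh μ (diagonal j) x N + uu μ N / (m + 2))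
        + 2 * nX μ x * (θ * hh μ (diagonal j) x N)
        + 4 / (m + 1) * |∑ b, m1 μ N b * xi μ j x b|) ≤ Qcss μ m x N := by
  have h1 := Nxx_le_th h hm.le hY
  have h2 : nX μ x ^ 2 = s3 fun a b c => m3 μ x x x a b c ^ 2 :=
    Real.sq_sqrt (s3_nonneg fun a b c => sq_nonneg _)
  have e : Qcss μ m x N = ((m + 2) ^ 2 / 4 + 1) * (s3 fun a b c => m3 μ x x x a b c ^ 2)
      - 2 * (s3 fun a b c => m3 μ N x x a b c ^ 2) := rfl
  rw [e, ← h2]
  have e2 : (m + 4) ^ 2 / 4 * nX μ x ^ 2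
      = ((m + 2) ^ 2 / 4 + 1) * nX μ x ^ 2 + (m + 2) * nX μ x ^ 2 := by ring
  linarith

/-- **the lower bound of the defect of the law on a cell** -/
theorem XL_low (hL : LSq μ (diagonal j) x N) (hθ0 : 0 ≤ θ)
    {W0 W1 e γ w σ τ W0L W1U EL E Γ δ ρ ω r s η pen P g : ℝ}
    (hW0 : W0L ≤ W0) (hW0L : 0 ≤ W0L) (hW1 : W1 ≤ W1U) (hW1U : 0 ≤ W1U) (hEL : 0 < EL)
    (heL : EL ≤ e) (he : e ≤ E) (hγ : γ ≤ Γ) (hw : 0 ≤ w) (hσ : 0 ≤ σ) (hδ1 : δ ≤ 1)
    (hδ : √(fro (De μ x N)) ≤ δ) (hρ : 0 ≤ ρ) (hω : 0 ≤ ω)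
    (hj : ∀ a, |j a| ≤ ρ) (hwf : ∑ b, (j b ^ 2 - 1) ^ 2 ≤ ω ^ 2)
    (hr : 0 ≤ r) (hr2 : kq m * η ≤ r ^ 2) (hs : √(uu μ N) ≤ s)
    (hη : hh μ (diagonal j) x N ≤ η) (hpen0 : 0 ≤ pen)
    (hpen : 2 * kq m - 2 * σ * (1 - δ) / (m + 2) ≤ pen) (hΓ : 0 ≤ Γ)
    (hloss : (W1U + E) * (2 * (θ * hh μ (diagonal j) x N) + Gc m * (ρ * ω) * √(uu μ N)) * nX μ x
        - EL * ((m + 4) ^ 2 / 4) * nX μ x ^ 2
      ≤ P * (2 * (θ * hh μ (diagonal j) x N) + Gc m * (ρ * ω) * √(uu μ N)) - g) :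
    cP m W0L W1U E w pen δ θ P * hh μ (diagonal j) x N + w * fro (De μ x N)
        - aP m Γ W1U E ρ ω r s η P * √(uu μ N) - τ + g
      ≤ XL μ m x N W0 W1 σ w e τ - γ * uu μ N := by
  have hk := kq_nonneg hm.le
  have hu : 0 ≤ √(uu μ N) := Real.sqrt_nonneg _
  have hs0 : 0 ≤ s := hu.trans hs
  have hh0 : 0 ≤ hh μ (diagonal j) x N := h.hh_nonneg _
  have hu2 : √(uu μ N) ^ 2 = uu μ N := Real.sq_sqrt h.uu_nonneg
  have he0 : 0 < e := hEL.trans_le heL
  have hE : 0 < E := he0.trans_le he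
  have hn0 : 0 ≤ nX μ x := h.nX_nonneg
  have hη0 : 0 ≤ η := hh0.trans hη
  have h1 := h.xi_cell hm j hρ hω hj hwf le_rfl hr hr2 hs hη
  have hG0 : 0 ≤ Gc m := by unfold Gc; positivity
  have hGd : 8 / (m * (m + 1)) = Gc m := rfl
  rw [hGd] at h1
  have h2 := h.Qpt_ge hm.le hL hδ
  have h3 := Qpts_ge_th h hm hY
  have h4 := Qcss_ge_th h hm hY
  have h5 := h.Qcs_eq hm.le
  have h6 := h.Qpt_nonneg hm.le
  have hu0 := h.uu_nonneg
  set G := Gc m with hG
  set H := hh μ (diagonal j) x N with hH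
  set Q := Qpt μ m x N with hQ
  set F := fro (De μ x N) with hF
  set v := √(uu μ N) with hv
  set X := nX μ x with hX
  set Z := 4 / (m + 1) * |∑ b, m1 μ N b * xi μ j x b| with hZ
  set Y := 2 * ω * (r + s / (m + 2)) + ρ * η with hYd
  have hY0 : 0 ≤ Y := by rw [hYd]; positivity
  have hZ0 : 0 ≤ Z := by rw [hZ]; positivity
  have hZle : Z ≤ G * (ρ * ω) * v * X + G * Y * v := by
    refine h1.trans (le_of_eq ?_)
    rw [hYd]
    ring
  set S := θ * H with hS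
  have hS0 : 0 ≤ S := mul_nonneg hθ0 hh0
  set q := 2 * (1 - δ) / (m + 2) * H with hq
  -- the tangent term
  have p2 : -(pen * H + 2 * X * S + Z) ≤ min (Qpts μ m x N + σ * Q) 0 := by
    have hpH : 0 ≤ pen * H := mul_nonneg hpen0 hh0
    have hXH : 0 ≤ 2 * X * S := by positivity
    refine le_min ?_ (by linarith)
    have k1 : σ * q ≤ σ * Q := mul_le_mul_of_nonneg_left h2 hσ
    have k2 : (2 * kq m - 2 * σ * (1 - δ) / (m + 2)) * H ≤ pen * H :=
      mul_le_mul_of_nonneg_right hpen hh0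
    have k3 : σ * q = 2 * σ * (1 - δ) / (m + 2) * H := by rw [hq]; ring
    rw [sub_mul, ← k3] at k2
    linarith
  have p3 : W1U * (-(pen * H + 2 * X * S + Z)) ≤ W1 * min (Qpts μ m x N + σ * Q) 0 := by
    have k1 := mul_le_mul_of_nonneg_left p2 hW1U
    have k2 : W1U * min (Qpts μ m x N + σ * Q) 0 ≤ W1 * min (Qpts μ m x N + σ * Q) 0 :=
      mul_le_mul_of_nonpos_right hW1 (min_le_right _ _)
    linarith
  -- the second term of the first square
  have p4 : EL * ((m + 4) ^ 2 / 4 * X ^ 2)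
      - E * (2 * (kq m * H + uu μ N / (m + 2)) + 2 * X * S + Z) ≤ e * Qcss μ m x N := by
    set R := 2 * (kq m * H + uu μ N / (m + 2)) + 2 * X * S + Z with hR
    have hR0 : 0 ≤ R := by rw [hR]; positivity
    have k2 := mul_le_mul_of_nonneg_left h4 he0.le
    have k3 : e * R ≤ E * R := mul_le_mul_of_nonneg_right he hR0
    have k4 : EL * ((m + 4) ^ 2 / 4 * X ^ 2) ≤ e * ((m + 4) ^ 2 / 4 * X ^ 2) :=
      mul_le_mul_of_nonneg_right heL (by positivity)
    rw [mul_sub] at k2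
    linarith
  have p5 : W0L * q ≤ W0 * Q := by
    refine mul_le_mul hW0 h2 ?_ (hW0L.trans hW0)
    rw [hq]
    have : 0 ≤ 1 - δ := by linarith
    positivity
  have p6 : w * F + w * q ≤ w * Qcs μ x N := by
    rw [h5, mul_add]
    have := mul_le_mul_of_nonneg_left h2 hw
    linarith
  have p7 : γ * uu μ N ≤ Γ * uu μ N := mul_le_mul_of_nonneg_right hγ hu0
  have p8 : (Γ + 2 * E / (m + 2)) * uu μ N ≤ (Γ + 2 * E / (m + 2)) * s * v := by
    rw [mul_assoc, ← hu2, sq]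
    gcongr
  have p11 : (W1U + E) * Z ≤ (W1U + E) * (G * (ρ * ω) * v * X + G * Y * v) :=
    mul_le_mul_of_nonneg_left hZle (by positivity)
  have e1 : cP m W0L W1U E w pen δ θ P * H = W0L * q + w * q - W1U * (pen * H)
      - 2 * E * kq m * H - 2 * P * S := by
    rw [hq, hS]
    unfold cP
    ring
  have e2 : aP m Γ W1U E ρ ω r s η P * v = (Γ + 2 * E / (m + 2)) * s * v
      + (W1U + E) * (G * Y * v) + P * (G * (ρ * ω) * v) := by
    rw [hYd, hG]
    unfold aP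
    ring
  have e3 : P * (2 * S + G * (ρ * ω) * v) = 2 * P * S + P * (G * (ρ * ω) * v) := by ring
  have e4 : (W1U + E) * (2 * S + G * (ρ * ω) * v) * X = W1U * (2 * X * S) + E * (2 * X * S)
      + (W1U + E) * (G * (ρ * ω) * v * X) := by ring
  have e5 : (Γ + 2 * E / (m + 2)) * uu μ N = Γ * uu μ N + 2 * E * (uu μ N / (m + 2)) := by ring
  rw [e1, e2]
  rw [e5] at p8
  rw [e3, e4] at hloss
  rw [mul_add (W1U + E) (G * (ρ * ω) * v * X) (G * Y * v), add_mul W1U E Z] at p11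
  unfold XL
  have e6 : E * (2 * (kq m * H + uu μ N / (m + 2)) + 2 * X * S + Z)
      = 2 * E * kq m * H + 2 * E * (uu μ N / (m + 2)) + E * (2 * X * S) + E * Z := by ring
  have e7 : W1U * (-(pen * H + 2 * X * S + Z))
      = -(W1U * (pen * H)) - W1U * (2 * X * S) - W1U * Z := by ring
  rw [e6] at p4
  rw [e7] at p3
  have e8 : EL * ((m + 4) ^ 2 / 4) * X ^ 2 = EL * ((m + 4) ^ 2 / 4 * X ^ 2) := by ring
  rw [e8] at hloss
  linarith

/-- the third moments of the position on a cell -/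
theorem nX_cell_th {ρ ω n r s η : ℝ} (hθ0 : 0 ≤ θ) (hρ : 0 ≤ ρ) (hω : 0 ≤ ω)
    (hj : ∀ a, |j a| ≤ ρ) (hw : ∑ b, (j b ^ 2 - 1) ^ 2 ≤ ω ^ 2)
    (hr : 0 ≤ r) (hr2 : kq m * η ≤ r ^ 2) (hs : √(uu μ N) ≤ s)
    (hη : hh μ (diagonal j) x N ≤ η) (hn0 : 0 < n)
    (hn : (2 * (θ * η) + Gc m * s * (ρ * ω)) * n
      + (2 * (kq m * η) + Gc m * s * (2 * ω * (r + s / (m + 2)) + ρ * η)) ≤ (m + 2) * n ^ 2) :
    nX μ x ≤ n := by
  by_contra hlt
  push Not at hlt
  set t := nX μ x with ht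
  have hk := kq_nonneg hm.le
  have hu : 0 ≤ √(uu μ N) := Real.sqrt_nonneg _
  have hs0 : 0 ≤ s := hu.trans hs
  have hh0 : 0 ≤ hh μ (diagonal j) x N := h.hh_nonneg _
  have hη0 : 0 ≤ η := hh0.trans hη
  have h1 := h.xi_cell hm j hρ hω hj hw le_rfl hr hr2 hs hη
  have h2 := nX_sharp h hm.le hY
  have hGd : 8 / (m * (m + 1)) = Gc m := rfl
  rw [hGd] at h1
  rw [← ht] at h1 h2
  have hG : 0 ≤ Gc m := by unfold Gc; positivity
  set G := Gc m with hGs
  have ht0 : 0 < t := hn0.trans hlt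
  have h5 : G * (ρ * ω * t + 2 * ω * (r + s / (m + 2)) + ρ * η) * √(uu μ N)
      ≤ G * (ρ * ω * t + 2 * ω * (r + s / (m + 2)) + ρ * η) * s := by
    gcongr
  have h6 : kq m * hh μ (diagonal j) x N ≤ kq m * η := mul_le_mul_of_nonneg_left hη hk
  have h8 : 2 * t * (θ * hh μ (diagonal j) x N) ≤ 2 * t * (θ * η) := by gcongr
  have h9 : (m + 2) * t ^ 2 ≤ (2 * (θ * η) + G * s * (ρ * ω)) * t
      + (2 * (kq m * η) + G * s * (2 * ω * (r + s / (m + 2)) + ρ * η)) := by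
    linarith
  set B := 2 * (θ * η) + G * s * (ρ * ω) with hB
  set C := 2 * (kq m * η) + G * s * (2 * ω * (r + s / (m + 2)) + ρ * η) with hC
  have hC0 : 0 ≤ C := by positivity
  have q1 : ((m + 2) * n - B) * n ≥ C := by linarith
  have q2 : 0 ≤ (m + 2) * n - B := by
    by_contra hneg
    push Not at hneg
    have : ((m + 2) * n - B) * n < 0 := mul_neg_of_neg_of_pos hneg hn0
    linarith
  have q3 : ((m + 2) * n - B) * n ≤ ((m + 2) * n - B) * t := mul_le_mul_of_nonneg_left hlt.le q2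
  have q4 : (m + 2) * n * t < (m + 2) * t * t := by
    have : (m + 2) * n < (m + 2) * t := mul_lt_mul_of_pos_left hlt (by positivity)
    exact mul_lt_mul_of_pos_right this ht0
  nlinarith

end low

end

/-- the cell of the first kind: the mean normal law closes -/
lemma close_one {c A g w F H v τ rel K L R gp da ha η val : ℝ}
    (hval : c * H + w * F - A * v - τ + g ≤ val) (hA : 0 ≤ A) (hL : 0 < L)
    (hKL : L * v ≤ K * H + R) (hτ : τ ≤ rel * H) (hda : da ^ 2 ≤ F) (hw : 0 ≤ w)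
    (hha : ha ≤ H) (hη : H ≤ η)
    (hc1 : (A * K + (rel - c) * L) * ha + A * R + gp * L ≤ (w * da ^ 2 + g) * L)
    (hc2 : (A * K + (rel - c) * L) * η + A * R + gp * L ≤ (w * da ^ 2 + g) * L) : gp ≤ val := by
  have h2 : A * (L * v) ≤ A * (K * H + R) := mul_le_mul_of_nonneg_left hKL hA
  have h3 : w * da ^ 2 ≤ w * F := mul_le_mul_of_nonneg_left hda hw
  have h4 : (A * K + (rel - c) * L) * H + A * R + gp * L ≤ (w * da ^ 2 + g) * L := by
    rcases le_total 0 (A * K + (rel - c) * L) with h5 | h5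
    · have := mul_le_mul_of_nonneg_left hη h5
      linarith
    · have := mul_le_mul_of_nonpos_left hha h5
      linarith
  have h5 : 0 ≤ L * (c * H + w * da ^ 2 - A * v - rel * H - gp + g) := by nlinarith
  have h6 : 0 ≤ c * H + w * da ^ 2 - A * v - rel * H - gp + g := by
    by_contra hneg
    push Not at hneg
    have := mul_neg_of_pos_of_neg hL hneg
    linarith
  linarith

/-- the cell of the second kind: the mean normal is only bounded -/
lemma close_two {c A g w F H v τ ab gp da ha s val : ℝ}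
    (hval : c * H + w * F - A * v - τ + g ≤ val) (hA : 0 ≤ A) (hs : v ≤ s)
    (hτ : τ ≤ ab) (hda : da ^ 2 ≤ F) (hw : 0 ≤ w)
    (hha : ha ≤ H) (hc0 : 0 ≤ c) (hc : A * s + ab + gp ≤ c * ha + w * da ^ 2 + g) :
    gp ≤ val := by
  have h2 : A * v ≤ A * s := mul_le_mul_of_nonneg_left hs hA
  have h3 : w * da ^ 2 ≤ w * F := mul_le_mul_of_nonneg_left hda hw
  have h4 : c * ha ≤ c * H := mul_le_mul_of_nonneg_left hha hc0
  linarith

/-- the cell of the second kind with the relative bound of the tail -/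
lemma close_three {c A g w F H v τ rel gp da ha s val : ℝ}
    (hval : c * H + w * F - A * v - τ + g ≤ val) (hA : 0 ≤ A) (hs : v ≤ s)
    (hτ : τ ≤ rel * H) (hda : da ^ 2 ≤ F) (hw : 0 ≤ w)
    (hha : ha ≤ H) (hc0 : 0 ≤ c - rel) (hc : A * s + gp ≤ (c - rel) * ha + w * da ^ 2 + g) :
    gp ≤ val := by
  have h2 : A * v ≤ A * s := mul_le_mul_of_nonneg_left hs hA
  have h3 : w * da ^ 2 ≤ w * F := mul_le_mul_of_nonneg_left hda hw
  have h4 := mul_le_mul_of_nonneg_left hha hc0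
  linarith

end Vale.Agent.P224.R2.H807
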