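import Vale.Agent.P224.R2.H728.Nc
import Vale.Agent.P224.R2.H807.Nt

/-!
A rational checker for the near law, with the small factor of the third moments, the bound of
the third moments of the position, and affine bounds of the mean normal.
-/

namespace Vale.Agent.P224.R2.H807

open MeasureTheory Set Filter Function Real Finset Matrix Vale.Agent.P224.R2.H582
  Vale.Agent.P224.R2.H728

set_option linter.unusedSectionVars false

/-- the cell of the first kind with the absolute bound of the tail -/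
lemma close_one_abs {c A g w F H v τ ab K L R gp da ha η val : ℝ}
    (hval : c * H + w * F - A * v - τ + g ≤ val) (hA : 0 ≤ A) (hL : 0 < L)
    (hKL : L * v ≤ K * H + R) (hτ : τ ≤ ab) (hda : da ^ 2 ≤ F) (hw : 0 ≤ w)
    (hha : ha ≤ H) (hη : H ≤ η)
    (hc1 : (A * K + (0 - c) * L) * ha + A * R + (gp + ab) * L ≤ (w * da ^ 2 + g) * L)
    (hc2 : (A * K + (0 - c) * L) * η + A * R + (gp + ab) * L ≤ (w * da ^ 2 + g) * L) :
    gp ≤ val := by
  have h := close_one (τ := 0) (rel := 0) (gp := gp + ab) (val := val + τ)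
    (by linarith) hA hL hKL (by simp) hda hw hha hη hc1 hc2
  linarith

/-- an affine bound `L |e| ≤ K h + R` of the mean normal on the box `|D| ≤ d`, `ha ≤ h ≤ hb` -/
structure ElT where
  d : ℚ
  ha : ℚ
  h : ℚ
  K : ℚ
  L : ℚ
  R : ℚ

/-- a cell: upper end in the defect, bound of the weights, root, bound of the mean normal, index
of the law, index of the bound of the mean normal, kind, the factor of the third moments with its
parameter, the bound of the third moments of the position with its tangent point -/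
structure CellT where
  hb : ℚ
  ρ : ℚ
  r : ℚ
  s : ℚ
  i : ℕ
  k : ℕ
  kd : Bool
  th : ℚ
  dl : ℚ
  lin : Bool
  n : ℚ
  X0 : ℚ

/-- a column: upper end in the deviation and cells -/
structure ColT where
  db : ℚ
  cs : List CellT

/-- the moment of order `2 k` of a linear function -/
def momQ (m : ℚ) : ℕ → ℚ
  | 0 => 1
  | k + 1 => momQ m k * ((2 * k + 1) / (m + 2 * k + 1))

/-- the bound of `E |<x,v>| |z|^2` -/
def BlQ (k : ℕ) (δ M ρ H : ℚ) : ℚ :=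
  δ * (1 - 1 / (2 * k)) * H + δ / (2 * k) / δ ^ (2 * k) * M * (1 + ρ) ^ 2

def cPQ (m W0 W1 E w pen δ θ P : ℚ) : ℚ :=
  (W0 + w) * (2 * (1 - δ) / (m + 2)) - W1 * pen - 2 * E * kqQ m - 2 * θ * P

def aPQ (m Γ W1 E ρ ω r s η P : ℚ) : ℚ :=
  (Γ + 2 * E / (m + 2)) * s + (W1 + E) * GcQ m * (2 * ω * (r + s / (m + 2)) + ρ * η)
    + P * (GcQ m * (ρ * ω))

/-- the factor of the third moments of a cell -/
def thOK (k : ℕ) (M ha : ℚ) (c : CellT) : Bool :=
  decide (0 ≤ c.th) && (decide (c.th = 1) || (decide (1 ≤ k) && decide (0 < c.dl)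
    && decide (c.dl * (1 - 1 / (2 * k)) ≤ c.th ^ 2)
    && decide (BlQ k c.dl M c.ρ ha ≤ c.th ^ 2 * ha)))

/-- the bound of the third moments of the position of a cell -/
def nOK (p : ParQ) (q : LawQ) (ha ω : ℚ) (c : CellT) : Bool :=
  !c.lin || (decide (0 < c.n)
    && decide ((2 * (c.th * c.hb) + GcQ p.m * c.s * (c.ρ * ω)) * c.n
      + (2 * (kqQ p.m * c.hb) + GcQ p.m * c.s * (2 * ω * (c.r + c.s / (p.m + 2)) + c.ρ * c.hb))
      ≤ (p.m + 2) * c.n ^ 2)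
    && decide (2 * (p.EL * ((p.m + 4) ^ 2 / 4)) * c.X0 ≤ (q.W1 + p.E) * (2 * (c.th * ha))))

/-- the factor of the cross term -/
def PQ (p : ParQ) (q : LawQ) (ω : ℚ) (c : CellT) : ℚ :=
  if c.lin then (q.W1 + p.E) * c.n
  else q.b / 4 * (2 * (c.th * c.hb) + GcQ p.m * (c.ρ * ω) * c.s)

/-- the gain of the tangent -/
def gQ (p : ParQ) (c : CellT) : ℚ :=
  if c.lin then p.EL * ((p.m + 4) ^ 2 / 4) * c.X0 * (2 * c.n - c.X0) else 0

/-- the two inequalities of a cell of the first kind, with the relative or with the absolute bound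
of the tail -/
def oneT (p : ParQ) (q : LawQ) (f : ElT) (da db ha ω : ℚ) (c : CellT) : Bool :=
  let P := PQ p q ω c
  let g := gQ p c
  let A := aPQ p.m p.Γ q.W1 p.E c.ρ ω c.r c.s c.hb P
  let t := cPQ p.m q.W0 q.W1 p.E (wQ p.m) (penQ p.m q.σ db) db c.th P
  decide (db ≤ f.d) && decide (f.ha ≤ ha) && decide (c.hb ≤ f.h) && decide (0 < f.L)
    && (decide (p.ν ≤ c.s) || decide (f.K * c.hb + f.R ≤ f.L * c.s)) && decide (0 ≤ f.K)
    && decide (0 ≤ A)
    && ((decide ((A * f.K + (q.rel - t) * f.L) * ha + A * f.R + p.gp * f.L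
      ≤ (wQ p.m * da ^ 2 + g) * f.L)
    && decide ((A * f.K + (q.rel - t) * f.L) * c.hb + A * f.R + p.gp * f.L
      ≤ (wQ p.m * da ^ 2 + g) * f.L))
    || (decide ((A * f.K + (0 - t) * f.L) * ha + A * f.R + (p.gp + q.ab) * f.L
      ≤ (wQ p.m * da ^ 2 + g) * f.L)
    && decide ((A * f.K + (0 - t) * f.L) * c.hb + A * f.R + (p.gp + q.ab) * f.L
      ≤ (wQ p.m * da ^ 2 + g) * f.L)))

/-- the inequality of a cell of the second kind -/
def twoT (p : ParQ) (q : LawQ) (da db ha ω : ℚ) (c : CellT) : Bool :=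
  let P := PQ p q ω c
  let g := gQ p c
  let A := aPQ p.m p.Γ q.W1 p.E c.ρ ω c.r c.s c.hb P
  let t := cPQ p.m q.W0 q.W1 p.E (wQ p.m) (penQ p.m q.σ db) db c.th P
  decide (p.ν ≤ c.s) && decide (0 ≤ A)
    && ((decide (0 ≤ t) && decide (A * c.s + q.ab + p.gp ≤ t * ha + wQ p.m * da ^ 2 + g))
      || (decide (0 ≤ t - q.rel)
        && decide (A * c.s + p.gp ≤ (t - q.rel) * ha + wQ p.m * da ^ 2 + g)))

/-- the conditions on a cell -/
def cellT (p : ParQ) (k : ℕ) (M : ℚ) (laws : List LawQ) (els : List ElT) (da db ha : ℚ)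
    (c : CellT) : Bool :=
  let ω := (p.m + 2) * ((db + c.hb) / (1 - db))
  decide (0 ≤ c.ρ) && decide (1 + (p.m + 2) * (db / (1 - db)) ≤ c.ρ ^ 2) && decide (0 ≤ c.r)
    && decide (kqQ p.m * c.hb ≤ c.r ^ 2) && thOK k M ha c
    && (match laws[c.i]? with
      | none => false
      | some q => lawOK p q && decide (db ≤ q.d) && decide (c.hb ≤ q.h) && nOK p q ha ω c &&
        (if c.kd then
          (match els[c.k]? with
          | none => false
          | some f => oneT p q f da db ha ω c)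
        else twoT p q da db ha ω c))

/-- the cells of a column -/
def cellsT (p : ParQ) (k : ℕ) (M : ℚ) (laws : List LawQ) (els : List ElT) (da db : ℚ) :
    ℚ → List CellT → Bool
  | ha, [] => decide (p.h0 < ha * (1 - db))
  | ha, c :: cs => cellT p k M laws els da db ha c && cellsT p k M laws els da db c.hb cs

/-- the columns -/
def colsT (p : ParQ) (k : ℕ) (M : ℚ) (laws : List LawQ) (els : List ElT) : ℚ → List ColT → Bool
  | da, [] => decide (p.d0 < da)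
  | da, c :: cs => decide (c.db < 1) && decide (da ≤ c.db)
    && cellsT p k M laws els da c.db (if c.db ≤ p.d1 then p.h1 else 0) c.cs
    && colsT p k M laws els c.db cs

/-- the checker -/
def nearT (p : ParQ) (k : ℕ) (M : ℚ) (laws : List LawQ) (els : List ElT) (cols : List ColT) :
    Bool :=
  decide (0 < p.m) && decide (0 < p.EL) && decide (p.EL ≤ p.E) && decide (0 ≤ p.Γ)
    && decide (0 ≤ p.ν) && decide (0 < p.WU) && decide (0 ≤ p.d0) && decide (p.d0 < 1)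
    && decide (p.Γ * p.ν ^ 2 + p.tV + p.gp + 2 * p.E * (kqQ p.m + p.ν ^ 2 / (p.m + 2))
      ≤ wQ p.m * p.d0 ^ 2)
    && decide ((p.Γ * p.ν ^ 2 + p.tU + p.gp) * (p.m + 2) ≤ 2 * p.WU * p.h0)
    && decide (momQ p.m k ≤ M)
    && colsT p k M laws els 0 cols

section

variable {ι Ω : Type*} [Fintype ι] [DecidableEq ι] [MeasurableSpace Ω] {μ : Measure Ω}
  {m : ℝ} {x N : ι → Ω → ℝ} {j : ι → ℝ}

lemma cP_cast (m W0 W1 E w pen δ θ P : ℚ) : ((cPQ m W0 W1 E w pen δ θ P : ℚ) : ℝ)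
    = cP m W0 W1 E w pen δ θ P := by
  unfold cPQ cP; push_cast; rw [kq_cast]
lemma aP_cast (m Γ W1 E ρ ω r s η P : ℚ) : ((aPQ m Γ W1 E ρ ω r s η P : ℚ) : ℝ)
    = aP m Γ W1 E ρ ω r s η P := by
  unfold aPQ aP; push_cast; rw [Gc_cast]
lemma Bl_cast (k : ℕ) (δ M ρ H : ℚ) : ((BlQ k δ M ρ H : ℚ) : ℝ) = Bl k δ M ρ H := by
  unfold BlQ Bl; push_cast; ring

lemma mom_cast (m : ℚ) (k : ℕ) : ((momQ m k : ℚ) : ℝ)
    = ∏ i ∈ Finset.range k, (2 * (i : ℝ) + 1) / ((m : ℝ) + 2 * i + 1) := by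
  induction k with
  | zero => simp [momQ]
  | succ k ih =>
    have e : momQ m (k + 1) = momQ m k * ((2 * k + 1) / (m + 2 * k + 1)) := rfl
    rw [Finset.prod_range_succ, ← ih, e]
    push_cast
    ring

/-- the hypotheses on the data common to all cells -/
structure NearHypT (μ : Measure Ω) (p : ParQ) (k : ℕ) (M : ℚ) (laws : List LawQ)
    (els : List ElT) (x N : ι → Ω → ℝ) (j : ι → ℝ) (γ e : ℝ) : Prop where
  dat : T0Data μ (p.m : ℝ) x N
  lsq : LSq μ (diagonal j) x N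
  hγ : γ ≤ p.Γ
  heL : (p.EL : ℝ) ≤ e
  he : e ≤ p.E
  hν : √(uu μ N) ≤ p.ν
  hM : ∀ v : ι → ℝ, ∑ a, v a ^ 2 = 1 → ∫ ω, (∑ a, v a * x a ω) ^ (2 * k) ∂μ ≤ M
  hlaw : ∀ q ∈ laws, √(fro (De μ x N)) ≤ q.d → hh μ (diagonal j) x N ≤ q.h →
    ∃ W0 W1 τ : ℝ, (q.W0 : ℝ) ≤ W0 ∧ W1 ≤ q.W1
    ∧ τ ≤ q.rel * hh μ (diagonal j) x N ∧ τ ≤ q.ab
    ∧ XL μ p.m x N W0 W1 q.σ (wQ p.m : ℚ) e τ < γ * uu μ N + p.gp
  hel : ∀ f ∈ els, √(fro (De μ x N)) ≤ f.d → (f.ha : ℝ) ≤ hh μ (diagonal j) x N →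
    hh μ (diagonal j) x N ≤ f.h →
    f.L * √(uu μ N) ≤ f.K * hh μ (diagonal j) x N + f.R

/-- soundness of the factor of the third moments -/
lemma th_sound {k : ℕ} {M ha : ℚ} {c : CellT} {m : ℝ} (h : T0Data μ m x N)
    (hM : ∀ v : ι → ℝ, ∑ a, v a ^ 2 = 1 → ∫ ω, (∑ a, v a * x a ω) ^ (2 * k) ∂μ ≤ M)
    (hρ : (0 : ℝ) ≤ c.ρ) (hj : ∀ a, |j a| ≤ (c.ρ : ℝ))
    (hha : (ha : ℝ) ≤ hh μ (diagonal j) x N) (hc : thOK k M ha c = true) :
    0 ≤ (c.th : ℝ) ∧ √(s3 fun a b d => m3 μ x (zd j x N) (zd j x N) a b d ^ 2)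
      ≤ c.th * hh μ (diagonal j) x N := by
  simp only [thOK, Bool.and_eq_true, Bool.or_eq_true, decide_eq_true_eq] at hc
  obtain ⟨h0, hc⟩ := hc
  have h0R : (0 : ℝ) ≤ c.th := by exact_mod_cast h0
  refine ⟨h0R, ?_⟩
  rcases hc with hc | ⟨⟨⟨hk, hdl⟩, h1⟩, h2⟩
  · rw [hc]
    push_cast
    exact xzz_le_one h j
  · have hdlR : (0 : ℝ) < c.dl := by exact_mod_cast hdl
    have h1R : (c.dl : ℝ) * (1 - 1 / (2 * k)) ≤ (c.th : ℝ) ^ 2 := by
      have := (Rat.cast_le (K := ℝ)).2 h1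
      push_cast at this
      exact this
    have h2R := (Rat.cast_le (K := ℝ)).2 h2
    rw [Bl_cast] at h2R
    push_cast at h2R
    refine xzz_le h (B := Bl k c.dl M c.ρ (hh μ (diagonal j) x N))
      (fun v hv => lin_le h hρ hj hk hdlR (hM v hv)) h0R ?_
    have e1 : Bl k (c.dl : ℝ) M c.ρ (hh μ (diagonal j) x N)
        = Bl k c.dl M c.ρ ha + c.dl * (1 - 1 / (2 * k)) * (hh μ (diagonal j) x N - ha) := by
      unfold Bl
      ring
    rw [e1]
    have e2 : (c.dl : ℝ) * (1 - 1 / (2 * k)) * (hh μ (diagonal j) x N - ha)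
        ≤ (c.th : ℝ) ^ 2 * (hh μ (diagonal j) x N - ha) :=
      mul_le_mul_of_nonneg_right h1R (by linarith)
    linarith

/-- the lower bound of the defect of the law on a cell -/
theorem cell_low {p : ParQ} {k : ℕ} {M : ℚ} {laws : List LawQ} {els : List ElT} {γ e : ℝ}
    (H : NearHypT μ p k M laws els x N j γ e) (hm : 0 < p.m) (hEL : 0 < p.EL) (hΓ : 0 ≤ p.Γ)
    {db ha ωq : ℚ} (hdb : √(fro (De μ x N)) ≤ db) (hdb1 : db < 1) (c : CellT)
    (hha : (ha : ℝ) ≤ hh μ (diagonal j) x N) (hhb : hh μ (diagonal j) x N ≤ c.hb)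
    (hρR : (0 : ℝ) ≤ c.ρ) (hj : ∀ a, |j a| ≤ (c.ρ : ℝ)) (hω0 : (0 : ℝ) ≤ (ωq : ℝ))
    (hwf : ∑ b, (j b ^ 2 - 1) ^ 2 ≤ (ωq : ℝ) ^ 2) (hrR : (0 : ℝ) ≤ c.r)
    (hr2R : kq p.m * (c.hb : ℝ) ≤ (c.r : ℝ) ^ 2) (hth0 : 0 ≤ (c.th : ℝ))
    (hY : √(s3 fun a b d => m3 μ x (zd j x N) (zd j x N) a b d ^ 2)
      ≤ c.th * hh μ (diagonal j) x N)
    (q : LawQ) (hlq : lawOK p q = true) (hn : nOK p q ha ωq c = true)
    {W0 W1 τ : ℝ} (hW0 : (q.W0 : ℝ) ≤ W0) (hW1 : W1 ≤ q.W1) (hs : √(uu μ N) ≤ c.s) :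
    (cPQ p.m q.W0 q.W1 p.E (wQ p.m) (penQ p.m q.σ db) db c.th (PQ p q ωq c) : ℚ)
            * hh μ (diagonal j) x N + (wQ p.m : ℚ) * fro (De μ x N)
          - (aPQ p.m p.Γ q.W1 p.E c.ρ ωq c.r c.s c.hb (PQ p q ωq c) : ℚ) * √(uu μ N)
          - τ + (gQ p c : ℚ)
        ≤ XL μ p.m x N W0 W1 q.σ (wQ p.m : ℚ) e τ - γ * uu μ N := by
  have h := H.dat
  have hL := H.lsq
  have hmR : (0 : ℝ) < p.m := by exact_mod_cast hm
  have hELR : (0 : ℝ) < p.EL := by exact_mod_cast hEL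
  have hΓR : (0 : ℝ) ≤ p.Γ := by exact_mod_cast hΓ
  have hdb1R : (db : ℝ) < 1 := by exact_mod_cast hdb1
  have hu : 0 ≤ √(uu μ N) := Real.sqrt_nonneg _
  have hE0 : (0 : ℝ) ≤ p.E := (hELR.trans_le (H.heL.trans H.he)).le
  have hG0 : 0 ≤ Gc (p.m : ℝ) := by unfold Gc; positivity
  unfold lawOK at hlq
  simp only [Bool.and_eq_true, decide_eq_true_eq] at hlq
  obtain ⟨⟨⟨⟨l1, l2⟩, l3⟩, l4⟩, l5⟩ := hlq
  have l1R : (0 : ℝ) ≤ q.W0 := by exact_mod_cast l1
  have l2R : (0 : ℝ) ≤ q.W1 := by exact_mod_cast l2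
  have l3R : (0 : ℝ) ≤ q.σ := by exact_mod_cast l3
  have l4R : (0 : ℝ) ≤ q.b := by exact_mod_cast l4
  have l5R : 4 * ((q.W1 : ℝ) + p.E) ^ 2 ≤ q.b * (p.EL * (p.m + 4) ^ 2) := by
    exact_mod_cast l5
  have hw0 : (0 : ℝ) ≤ (wQ p.m : ℚ) := by
    have : 0 ≤ wQ p.m := by unfold wQ; positivity
    exact_mod_cast this
  have hpen0 : (0 : ℝ) ≤ (penQ p.m q.σ db : ℚ) := by
    exact_mod_cast penQ_nonneg p.m q.σ db
  have hpen : 2 * kq p.m - 2 * (q.σ : ℝ) * (1 - db) / (p.m + 2) ≤ (penQ p.m q.σ db : ℚ) := by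
    rw [← kq_cast]
    exact_mod_cast le_penQ p.m q.σ db
  have hs0 : (0 : ℝ) ≤ c.s := hu.trans hs
  rw [cP_cast, aP_cast]
  refine XL_low h hmR hY hL hth0 hW0 l1R hW1 l2R hELR H.heL H.he H.hγ hw0 l3R hdb1R.le hdb
    hρR hω0 hj hwf hrR hr2R hs hhb hpen0 hpen hΓR ?_
  have hWE : (0 : ℝ) ≤ (q.W1 : ℝ) + p.E := by positivity
  have hH0 : 0 ≤ hh μ (diagonal j) x N := h.hh_nonneg _
  have ht0 : 0 ≤ 2 * ((c.th : ℝ) * hh μ (diagonal j) x N)
      + Gc p.m * ((c.ρ : ℝ) * ωq) * √(uu μ N) := by positivity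
  by_cases hlin : c.lin = true
  · simp only [nOK, hlin, Bool.not_true, Bool.false_or, Bool.and_eq_true,
      decide_eq_true_eq] at hn
    obtain ⟨⟨n1, n2⟩, n3⟩ := hn
    have n1R : (0 : ℝ) < c.n := by exact_mod_cast n1
    have n2R := (Rat.cast_le (K := ℝ)).2 n2
    have n3R := (Rat.cast_le (K := ℝ)).2 n3
    push_cast at n2R n3R
    rw [kq_cast, Gc_cast] at n2R
    have hX := nX_cell_th h hmR hY hth0 hρR hω0 hj hwf hrR hr2R hs hhb n1R n2R
    have e1 : ((PQ p q ωq c : ℚ) : ℝ) = ((q.W1 : ℝ) + p.E) * c.n := by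
      simp only [PQ, hlin, if_true]
      push_cast
      ring
    have e2 : ((gQ p c : ℚ) : ℝ) = p.EL * (((p.m : ℝ) + 4) ^ 2 / 4) * c.X0
        * (2 * c.n - c.X0) := by
      simp only [gQ, hlin, if_true]
      push_cast
      ring
    rw [e1, e2]
    refine loss_lin (by positivity) hX ?_
    refine n3R.trans (mul_le_mul_of_nonneg_left ?_ hWE)
    have k1 : (c.th : ℝ) * ha ≤ c.th * hh μ (diagonal j) x N :=
      mul_le_mul_of_nonneg_left hha hth0
    have k2 : 0 ≤ Gc (p.m : ℝ) * ((c.ρ : ℝ) * ωq) * √(uu μ N) := by positivity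
    linarith
  · have e1 : ((PQ p q ωq c : ℚ) : ℝ) = (q.b : ℝ) / 4 * (2 * ((c.th : ℝ) * c.hb)
        + Gc p.m * ((c.ρ : ℝ) * ωq) * c.s) := by
      simp only [PQ, hlin]
      push_cast
      rw [Gc_cast]
    have e2 : ((gQ p c : ℚ) : ℝ) = 0 := by
      simp only [gQ, hlin]
      simp
    have e3 : (q.b : ℝ) * (p.EL * (((p.m : ℝ) + 4) ^ 2 / 4))
        = q.b * (p.EL * ((p.m : ℝ) + 4) ^ 2) / 4 := by ring
    rw [e1, e2]
    refine loss_sq (by positivity) (by rw [e3]; linarith) l4R ht0 ?_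
    gcongr

/-- soundness of a cell -/
theorem cellT_sound {p : ParQ} {k : ℕ} {M : ℚ} {laws : List LawQ} {els : List ElT} {γ e : ℝ}
    (H : NearHypT μ p k M laws els x N j γ e) (hm : 0 < p.m) (hEL : 0 < p.EL) (hΓ : 0 ≤ p.Γ)
    {da db ha : ℚ} (hda0 : 0 ≤ da) (hda : (da : ℝ) ≤ √(fro (De μ x N)))
    (hdb : √(fro (De μ x N)) ≤ db) (hdb1 : db < 1) (c : CellT)
    (hha : (ha : ℝ) ≤ hh μ (diagonal j) x N) (hhb : hh μ (diagonal j) x N ≤ c.hb)
    (hc : cellT p k M laws els da db ha c = true) : False := by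
  have h := H.dat
  have hL := H.lsq
  have hmR : (0 : ℝ) < p.m := by exact_mod_cast hm
  have hELR : (0 : ℝ) < p.EL := by exact_mod_cast hEL
  have hΓR : (0 : ℝ) ≤ p.Γ := by exact_mod_cast hΓ
  have hdb0 : (0 : ℝ) ≤ db := (Real.sqrt_nonneg _).trans hdb
  have hdb1R : (db : ℝ) < 1 := by exact_mod_cast hdb1
  have hf0 : 0 ≤ fro (De μ x N) := fro_nonneg _
  have hfb : fro (De μ x N) ≤ (db : ℝ) ^ 2 := by
    rw [← Real.sq_sqrt hf0]
    exact pow_le_pow_left₀ (Real.sqrt_nonneg _) hdb 2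
  have hda0R : (0 : ℝ) ≤ da := by exact_mod_cast hda0
  have hfa : (da : ℝ) ^ 2 ≤ fro (De μ x N) := by
    rw [← Real.sq_sqrt hf0]
    exact pow_le_pow_left₀ hda0R hda 2
  have hH0 : 0 ≤ hh μ (diagonal j) x N := h.hh_nonneg _
  have hhb0 : (0 : ℝ) ≤ c.hb := hH0.trans hhb
  have hu : 0 ≤ √(uu μ N) := Real.sqrt_nonneg _
  have hE0 : (0 : ℝ) ≤ p.E := (hELR.trans_le (H.heL.trans H.he)).le
  have hG0 : 0 ≤ Gc (p.m : ℝ) := by unfold Gc; positivity
  set ωq : ℚ := (p.m + 2) * ((db + c.hb) / (1 - db)) with hωq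
  unfold cellT at hc
  simp only [Bool.and_eq_true, decide_eq_true_eq] at hc
  rw [← hωq] at hc
  obtain ⟨⟨⟨⟨⟨hρ, hρ2⟩, hr⟩, hr2⟩, hth⟩, hc⟩ := hc
  have hρR : (0 : ℝ) ≤ c.ρ := by exact_mod_cast hρ
  have hrR : (0 : ℝ) ≤ c.r := by exact_mod_cast hr
  have hρ2R : 1 + ((p.m : ℝ) + 2) * ((db : ℝ) / (1 - db)) ≤ (c.ρ : ℝ) ^ 2 := by
    exact_mod_cast hρ2
  have hr2R : kq p.m * (c.hb : ℝ) ≤ (c.r : ℝ) ^ 2 := by
    rw [← kq_cast]
    exact_mod_cast hr2
  have h1db : (0 : ℝ) < 1 - db := by linarith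
  -- the weights
  have hj : ∀ a, |j a| ≤ (c.ρ : ℝ) := by
    intro a
    have k1 := h.w_le hmR.le hL hdb0 hdb1R hfb a
    exact abs_le_of_sq_le_sq (by linarith) hρR
  have hωc : ((ωq : ℚ) : ℝ) = ((p.m : ℝ) + 2) * (((db : ℝ) + c.hb) / (1 - db)) := by
    rw [hωq]
    push_cast
    ring
  have hω0 : (0 : ℝ) ≤ (ωq : ℝ) := by
    rw [hωc]
    positivity
  have hwf : ∑ b, (j b ^ 2 - 1) ^ 2 ≤ (ωq : ℝ) ^ 2 := by
    refine (h.w_fro hmR.le hL hdb0 hdb1R hfb).trans ?_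
    rw [hωc]
    refine pow_le_pow_left₀ (by positivity) ?_ 2
    gcongr
  obtain ⟨hth0, hY⟩ := th_sound h H.hM hρR hj hha hth
  cases hq : laws[c.i]? with
  | none => rw [hq] at hc; simp at hc
  | some q =>
    rw [hq] at hc
    simp only [Bool.and_eq_true, decide_eq_true_eq] at hc
    obtain ⟨⟨⟨⟨hlq, hqd⟩, hqh⟩, hn⟩, hc⟩ := hc
    have hmem : q ∈ laws := List.mem_of_getElem? hq
    have hqdR : (db : ℝ) ≤ q.d := by exact_mod_cast hqd
    have hqhR : (c.hb : ℝ) ≤ q.h := by exact_mod_cast hqh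
    obtain ⟨W0, W1, τ, hW0, hW1, hτ1, hτ2, hlt⟩ :=
      H.hlaw q hmem (hdb.trans hqdR) (hhb.trans hqhR)
    have hw0 : (0 : ℝ) ≤ (wQ p.m : ℚ) := by
      have : 0 ≤ wQ p.m := by unfold wQ; positivity
      exact_mod_cast this
    have main := fun hs : √(uu μ N) ≤ c.s => cell_low H hm hEL hΓ hdb hdb1 c hha hhb hρR hj hω0
      hwf hrR hr2R hth0 hY q hlq hn hW0 hW1 (τ := τ) hs
    by_cases hkd : c.kd = true
    · rw [if_pos hkd] at hc
      cases hf : els[c.k]? with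
      | none => rw [hf] at hc; simp at hc
      | some f =>
        rw [hf] at hc
        have hfm : f ∈ els := List.mem_of_getElem? hf
        simp only [oneT, Bool.and_eq_true, Bool.or_eq_true, decide_eq_true_eq] at hc
        obtain ⟨⟨⟨⟨⟨⟨⟨c1, c0⟩, c2⟩, c3⟩, c4⟩, c5⟩, cA⟩, c67⟩ := hc
        have c1R : (db : ℝ) ≤ f.d := by exact_mod_cast c1
        have c0R : (f.ha : ℝ) ≤ ha := by exact_mod_cast c0
        have c2R : (c.hb : ℝ) ≤ f.h := by exact_mod_cast c2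
        have c3R : (0 : ℝ) < f.L := by exact_mod_cast c3
        have c5R : (0 : ℝ) ≤ f.K := by exact_mod_cast c5
        have cAR : (0 : ℝ) ≤ (aPQ p.m p.Γ q.W1 p.E c.ρ ωq c.r c.s c.hb (PQ p q ωq c) : ℚ) := by
          exact_mod_cast cA
        have hKL := H.hel f hfm (hdb.trans c1R) (c0R.trans hha) (hhb.trans c2R)
        have hs : √(uu μ N) ≤ c.s := by
          rcases c4 with c4 | c4
          · have c4R : (p.ν : ℝ) ≤ c.s := by exact_mod_cast c4
            exact H.hν.trans c4R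
          · have c4R : (f.K : ℝ) * c.hb + f.R ≤ f.L * c.s := by exact_mod_cast c4
            have k1 : (f.K : ℝ) * hh μ (diagonal j) x N ≤ f.K * c.hb :=
              mul_le_mul_of_nonneg_left hhb c5R
            exact le_of_mul_le_mul_left (by linarith) c3R
        rcases c67 with ⟨c6, c7⟩ | ⟨c6, c7⟩
        · have k6 := (Rat.cast_le (K := ℝ)).2 c6
          have k7 := (Rat.cast_le (K := ℝ)).2 c7
          rw [Rat.cast_add, Rat.cast_add, Rat.cast_mul, Rat.cast_add, Rat.cast_mul, Rat.cast_mul,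
            Rat.cast_sub, Rat.cast_mul, Rat.cast_mul, Rat.cast_mul, Rat.cast_add, Rat.cast_mul,
            Rat.cast_pow] at k6 k7
          have := close_one (gp := p.gp) (main hs) cAR c3R hKL hτ1 hfa hw0 hha hhb k6 k7
          linarith
        · have k6 := (Rat.cast_le (K := ℝ)).2 c6
          have k7 := (Rat.cast_le (K := ℝ)).2 c7
          rw [Rat.cast_add, Rat.cast_add, Rat.cast_mul, Rat.cast_add, Rat.cast_mul, Rat.cast_mul,
            Rat.cast_sub, Rat.cast_mul, Rat.cast_mul, Rat.cast_add, Rat.cast_mul, Rat.cast_add,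
            Rat.cast_mul, Rat.cast_pow, Rat.cast_zero] at k6 k7
          have := close_one_abs (gp := p.gp) (main hs) cAR c3R hKL hτ2 hfa hw0 hha hhb k6 k7
          linarith
    · rw [if_neg hkd] at hc
      simp only [twoT, Bool.and_eq_true, Bool.or_eq_true, decide_eq_true_eq] at hc
      obtain ⟨⟨c1, cA⟩, c2⟩ := hc
      have c1R : (p.ν : ℝ) ≤ c.s := by exact_mod_cast c1
      have cAR : (0 : ℝ) ≤ (aPQ p.m p.Γ q.W1 p.E c.ρ ωq c.r c.s c.hb (PQ p q ωq c) : ℚ) := by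
        exact_mod_cast cA
      have hs := H.hν.trans c1R
      rcases c2 with ⟨c2, c3⟩ | ⟨c2, c3⟩
      · have k2 : (0 : ℝ) ≤ (cPQ p.m q.W0 q.W1 p.E (wQ p.m) (penQ p.m q.σ db) db c.th
            (PQ p q ωq c) : ℚ) := by exact_mod_cast c2
        have k3 := (Rat.cast_le (K := ℝ)).2 c3
        rw [Rat.cast_add, Rat.cast_add, Rat.cast_mul, Rat.cast_add, Rat.cast_add, Rat.cast_mul,
          Rat.cast_mul, Rat.cast_pow] at k3
        have := close_two (gp := p.gp) (main hs) cAR hs hτ2 hfa hw0 hha k2 k3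
        linarith
      · have k2 : (0 : ℝ) ≤ (cPQ p.m q.W0 q.W1 p.E (wQ p.m) (penQ p.m q.σ db) db c.th
            (PQ p q ωq c) : ℚ) - (q.rel : ℝ) := by exact_mod_cast c2
        have k3 := (Rat.cast_le (K := ℝ)).2 c3
        rw [Rat.cast_add, Rat.cast_mul, Rat.cast_add, Rat.cast_add, Rat.cast_mul, Rat.cast_sub,
          Rat.cast_mul, Rat.cast_pow] at k3
        have := close_three (gp := p.gp) (main hs) cAR hs hτ1 hfa hw0 hha k2 k3
        linarith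

/-- soundness of a column -/
theorem cellsT_sound {p : ParQ} {k : ℕ} {M : ℚ} {laws : List LawQ} {els : List ElT} {γ e : ℝ}
    (H : NearHypT μ p k M laws els x N j γ e) (hm : 0 < p.m) (hEL : 0 < p.EL) (hΓ : 0 ≤ p.Γ)
    {da db : ℚ} (hda0 : 0 ≤ da) (hda : (da : ℝ) ≤ √(fro (De μ x N)))
    (hdb : √(fro (De μ x N)) ≤ db) (hdb1 : db < 1)
    (hh0 : (1 - √(fro (De μ x N))) * hh μ (diagonal j) x N ≤ p.h0) (cs : List CellT) :
    ∀ ha : ℚ, (ha : ℝ) ≤ hh μ (diagonal j) x N → cellsT p k M laws els da db ha cs = true →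
      False := by
  induction cs with
  | nil =>
    intro ha hha hc
    simp only [cellsT, decide_eq_true_eq] at hc
    have hcR : (p.h0 : ℝ) < ha * (1 - db) := by exact_mod_cast hc
    have h1 : (0 : ℝ) < 1 - db := by
      have : (db : ℝ) < 1 := by exact_mod_cast hdb1
      linarith
    have hH0 : 0 ≤ hh μ (diagonal j) x N := H.dat.hh_nonneg _
    have k1 : (1 - (db : ℝ)) * ha ≤ (1 - db) * hh μ (diagonal j) x N :=
      mul_le_mul_of_nonneg_left hha h1.le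
    have k2 : (1 - (db : ℝ)) * hh μ (diagonal j) x N
        ≤ (1 - √(fro (De μ x N))) * hh μ (diagonal j) x N :=
      mul_le_mul_of_nonneg_right (by linarith) hH0
    linarith
  | cons c cs ih =>
    intro ha hha hc
    simp only [cellsT, Bool.and_eq_true] at hc
    rcases le_or_gt (hh μ (diagonal j) x N) (c.hb : ℝ) with h1 | h1
    · exact cellT_sound H hm hEL hΓ hda0 hda hdb hdb1 c hha h1 hc.1
    · exact ih c.hb h1.le hc.2

/-- soundness of the columns -/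
theorem colsT_sound {p : ParQ} {k : ℕ} {M : ℚ} {laws : List LawQ} {els : List ElT} {γ e : ℝ}
    (H : NearHypT μ p k M laws els x N j γ e) (hm : 0 < p.m) (hEL : 0 < p.EL) (hΓ : 0 ≤ p.Γ)
    (hd0 : √(fro (De μ x N)) ≤ p.d0)
    (hh0 : (1 - √(fro (De μ x N))) * hh μ (diagonal j) x N ≤ p.h0) (cs : List ColT) :
    ∀ da : ℚ, 0 ≤ da → (da : ℝ) ≤ √(fro (De μ x N)) → colsT p k M laws els da cs = true →
      hh μ (diagonal j) x N ≤ p.h1 ∧ √(fro (De μ x N)) ≤ p.d1 := by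
  induction cs with
  | nil =>
    intro da _ hda hc
    simp only [colsT, decide_eq_true_eq] at hc
    have hcR : (p.d0 : ℝ) < da := by exact_mod_cast hc
    linarith
  | cons c cs ih =>
    intro da hda0 hda hc
    simp only [colsT, Bool.and_eq_true, decide_eq_true_eq] at hc
    obtain ⟨⟨⟨hc1, hc4⟩, hc2⟩, hc3⟩ := hc
    rcases le_or_gt (√(fro (De μ x N))) (c.db : ℝ) with h1 | h1
    · by_cases h2 : c.db ≤ p.d1
      · rw [if_pos h2] at hc2
        have h2R : (c.db : ℝ) ≤ p.d1 := by exact_mod_cast h2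
        rcases le_or_gt (hh μ (diagonal j) x N) (p.h1 : ℝ) with h3 | h3
        · exact ⟨h3, h1.trans h2R⟩
        · exact (cellsT_sound H hm hEL hΓ hda0 hda h1 hc1 hh0 c.cs _ h3.le hc2).elim
      · rw [if_neg h2] at hc2
        refine (cellsT_sound H hm hEL hΓ hda0 hda h1 hc1 hh0 c.cs 0 ?_ hc2).elim
        push_cast
        exact H.dat.hh_nonneg _
    · exact ih c.db (hda0.trans hc4) h1.le hc3

/-- **Soundness of the checker**: if all instances of the law fail then the defect and the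
deviation are in the small box. -/
theorem nearT_sound {p : ParQ} {k : ℕ} {M : ℚ} {laws : List LawQ} {els : List ElT}
    {cols : List ColT} {γ e : ℝ}
    (hok : nearT p k M laws els cols = true) (H : NearHypT μ p k M laws els x N j γ e)
    {WU τU τV : ℝ} (hWU : (p.WU : ℝ) ≤ WU) (hτU : τU ≤ p.tU) (hτV : τV ≤ p.tV)
    (hU : WU * Qpt μ p.m x N - τU < γ * uu μ N + p.gp)
    (hV : XL μ p.m x N 0 0 0 (wQ p.m : ℚ) e τV < γ * uu μ N + p.gp) :
    hh μ (diagonal j) x N ≤ p.h1 ∧ √(fro (De μ x N)) ≤ p.d1 := by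
  simp only [nearT, Bool.and_eq_true, decide_eq_true_eq] at hok
  obtain ⟨⟨⟨⟨⟨⟨⟨⟨⟨⟨⟨hm, hEL⟩, hELE⟩, hΓ⟩, hν⟩, hWU0⟩, hd00⟩, hd01⟩, hd0⟩, hh0⟩, -⟩, hcols⟩ := hok
  have h := H.dat
  have hmR : (0 : ℝ) < p.m := by exact_mod_cast hm
  have hELR : (0 : ℝ) < p.EL := by exact_mod_cast hEL
  have hΓR : (0 : ℝ) ≤ p.Γ := by exact_mod_cast hΓ
  have hνR : (0 : ℝ) ≤ p.ν := by exact_mod_cast hν
  have hWU0R : (0 : ℝ) < p.WU := by exact_mod_cast hWU0
  have hd00R : (0 : ℝ) ≤ p.d0 := by exact_mod_cast hd00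
  have hd01R : (p.d0 : ℝ) < 1 := by exact_mod_cast hd01
  have hd0R : (p.Γ : ℝ) * p.ν ^ 2 + p.tV + p.gp + 2 * p.E * (kq p.m + p.ν ^ 2 / (p.m + 2))
      ≤ (wQ p.m : ℚ) * p.d0 ^ 2 := by
    rw [← kq_cast]
    exact_mod_cast hd0
  have hh0R : ((p.Γ : ℝ) * p.ν ^ 2 + p.tU + p.gp) * (p.m + 2) ≤ 2 * p.WU * p.h0 := by
    exact_mod_cast hh0
  have hw0 : (0 : ℝ) < (wQ p.m : ℚ) := by
    have : 0 < wQ p.m := by unfold wQ; positivity
    exact_mod_cast this
  have hu2 : uu μ N ≤ (p.ν : ℝ) ^ 2 := by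
    rw [← Real.sq_sqrt h.uu_nonneg]
    exact pow_le_pow_left₀ (Real.sqrt_nonneg _) H.hν 2
  have hγu : γ * uu μ N ≤ p.Γ * (p.ν : ℝ) ^ 2 :=
    (mul_le_mul_of_nonneg_right H.hγ h.uu_nonneg).trans (mul_le_mul_of_nonneg_left hu2 hΓR)
  have hQ0 := h.Qpt_nonneg hmR.le
  have hH0 : 0 ≤ hh μ (diagonal j) x N := h.hh_nonneg _
  have hf0 : 0 ≤ fro (De μ x N) := fro_nonneg _
  have hk := kq_nonneg hmR.le
  have he0 : 0 < e := hELR.trans_le H.heL
  -- the bound of the deviation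
  have hd : √(fro (De μ x N)) ≤ p.d0 := by
    have k1 := h.Qcss_ge_free hmR.le
    have k2 := h.Qcs_eq hmR.le
    have k3 : e * -(2 * (kq p.m + uu μ N / (p.m + 2))) ≤ e * Qcss μ p.m x N :=
      mul_le_mul_of_nonneg_left k1 he0.le
    have k4 : e * (2 * (kq p.m + uu μ N / (p.m + 2)))
        ≤ p.E * (2 * (kq p.m + (p.ν : ℝ) ^ 2 / (p.m + 2))) := by
      have hu0 := h.uu_nonneg
      have hE := H.he
      have hE0 : (0 : ℝ) ≤ p.E := he0.le.trans hE
      gcongr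
    have k5 : 0 ≤ ((wQ p.m : ℚ) : ℝ) * Qpt μ p.m x N := mul_nonneg hw0.le hQ0
    unfold XL at hV
    rw [k2] at hV
    have k6 : ((wQ p.m : ℚ) : ℝ) * fro (De μ x N) ≤ (wQ p.m : ℚ) * (p.d0 : ℝ) ^ 2 := by
      nlinarith
    have k7 : fro (De μ x N) ≤ (p.d0 : ℝ) ^ 2 := le_of_mul_le_mul_left k6 hw0
    rw [Real.sqrt_le_left hd00R]
    exact k7
  -- the bound of the defect
  have hh1 : (1 - √(fro (De μ x N))) * hh μ (diagonal j) x N ≤ p.h0 := by
    have k1 := h.Qpt_ge hmR.le H.lsq (le_refl (√(fro (De μ x N))))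
    have k2 : (p.WU : ℝ) * Qpt μ p.m x N ≤ WU * Qpt μ p.m x N :=
      mul_le_mul_of_nonneg_right hWU hQ0
    have k3 : (p.WU : ℝ) * (2 * (1 - √(fro (De μ x N))) / (p.m + 2) * hh μ (diagonal j) x N)
        ≤ p.WU * Qpt μ p.m x N := mul_le_mul_of_nonneg_left k1 hWU0R.le
    have k4 : (p.WU : ℝ) * (2 * (1 - √(fro (De μ x N))) / (p.m + 2) * hh μ (diagonal j) x N)
        ≤ p.Γ * (p.ν : ℝ) ^ 2 + p.tU + p.gp := by linarith
    have k5 : 2 * (p.WU : ℝ) * ((1 - √(fro (De μ x N))) * hh μ (diagonal j) x N)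
        ≤ 2 * p.WU * p.h0 := by
      refine le_trans ?_ hh0R
      have k6 := mul_le_mul_of_nonneg_right k4 (by positivity : (0 : ℝ) ≤ p.m + 2)
      refine le_trans (le_of_eq ?_) k6
      field_simp
    exact le_of_mul_le_mul_left k5 (by positivity)
  exact colsT_sound H hm hEL hΓ hd hh1 cols 0 le_rfl (by push_cast; exact Real.sqrt_nonneg _)
    hcols

end

end Vale.Agent.P224.R2.H807
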