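import Vale.Agent.P224.R2.H728.Ne
import Vale.Agent.P224.R2.H807.Nct
import Vale.Agent.P224.R2.H470.OneInst
import Vale.Agent.P224.R2.H176.G.Glue0

/-!
The near law for a minimal hypersurface from the table with the small factor of the third
moments.
-/

namespace Vale.Agent.P224.R2.H807

open MeasureTheory Set Filter Function Real Finset Matrix Module Vale.Agent.P224
  Vale.Agent.P224.FV Vale.Agent.P224.R2.H582 Vale.Agent.P224.R2.H820 Vale.Agent.P224.R2.H627
  Vale.Agent.P224.R2.H728 Vale.Agent.P224.R2.H470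
open Vale.Agent.P224.SM2 hiding ker
open scoped Topology RealInnerProductSpace ContDiff Manifold

set_option linter.unusedSectionVars false

section

variable {X : Type*} {E : Type*} [NormedAddCommGroup E] [InnerProductSpace ℝ E]
  [TopologicalSpace X] [MeasurableSpace X] {μ : Measure X} {m : ℕ} {p n : X → E}

/-- the one point rows for a multiple of the measure -/
lemma oneP_mul (h : OneP μ m p n) (c : ENNReal) : OneP (c • μ) m p n where
  cp := h.cp
  cn := h.cn
  np := h.np
  nn := h.nn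
  pn := h.pn
  r1 := by
    intro f hf b
    rw [integral_smul_measure, integral_smul_measure, h.r1 f hf b]
    simp only [smul_eq_mul]
    ring
  r2 := by
    intro f hf b c
    rw [integral_smul_measure, integral_smul_measure, h.r2 f hf b c]
    simp only [smul_eq_mul]
    ring

end

section

variable {V W M : Type*} [NormedAddCommGroup V] [InnerProductSpace ℝ V] [FiniteDimensional ℝ V]
  [NormedAddCommGroup W] [InnerProductSpace ℝ W] [FiniteDimensional ℝ W]
  [TopologicalSpace M] [ChartedSpace V M]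
  [MeasurableSpace V] [BorelSpace V] [MeasurableSpace M] [BorelSpace M]
  [MeasurableSpace W] [BorelSpace W] [IsManifold 𝓘(ℝ, V) ∞ M]
  [CompactSpace M] [T2Space M]

/-- the moments of linear functions -/
theorem moments (hW : finrank ℝ W = finrank ℝ V + 2)
    {F : M → W} (hF : SphImm V F) (hmin : ∀ x n, IsUnitNormal V F x n → meanCurv V F x n = 0)
    {N : M → W} (hNs : ContMDiff 𝓘(ℝ, V) 𝓘(ℝ, W) ∞ N) (hN : ∀ x, IsUnitNormal V F x (N x))
    {ι : Type*} [Fintype ι] [DecidableEq ι] (b : OrthonormalBasis ι ℝ W)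
    (hp : IsProbabilityMeasure (nrm (volM V F))) {m : ℚ} (hm : m = finrank ℝ V) {k : ℕ} {Q : ℚ}
    (hQ : momQ m k ≤ Q) (v : ι → ℝ) (hv : ∑ a, v a ^ 2 = 1) :
    ∫ w, (∑ a, v a * co b F a w) ^ (2 * k) ∂(nrm (volM V F)) ≤ Q := by
  have h1 : OneP (nrm (volM V F)) (finrank ℝ V) F N :=
    oneP_mul (oneP_of_min hW hF hmin hNs hN) _
  have h2 := mom_basis h1 b k v hv
  have h3 : ((momQ m k : ℚ) : ℝ) ≤ Q := by exact_mod_cast hQ
  rw [mom_cast, hm] at h3
  push_cast at h3
  exact h2.trans h3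

/-- **The output of the near range** from a checked table, for given basis and weights. -/
theorem nearOutT_of (hW : finrank ℝ W = finrank ℝ V + 2)
    {F : M → W} (hF : SphImm V F) (hmin : ∀ x n, IsUnitNormal V F x n → meanCurv V F x n = 0)
    {m : ℕ} (hmm : m = finrank ℝ V)
    {p : ParQ} {k : ℕ} {Q : ℚ} {laws : List LawQ} {els : List ElT} {cols : List ColT}
    (hok : nearT p k Q laws els cols = true) (hpm : p.m = m)
    (hγ : m * rM m 0 ≤ p.Γ) (hEL : (p.EL : ℝ) ≤ m * (m + 1) * EM m 1)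
    (hE : m * (m + 1) * EM m 1 ≤ p.E) {ν : ℝ} (hν : ν ≤ p.ν)
    {N : M → W} {b : OrthonormalBasis (Fin (finrank ℝ W)) ℝ W} {j : Fin (finrank ℝ W) → ℝ}
    (hd : H176.NearData V F N b j ν)
    (hl : LawIn V F N m p laws b j)
    (hel : ∀ f ∈ els, √(fro (De (nrm (volM V F)) (co b F) (co b N))) ≤ f.d →
        (f.ha : ℝ) ≤ hh (nrm (volM V F)) (diagonal j) (co b F) (co b N) →
        hh (nrm (volM V F)) (diagonal j) (co b F) (co b N) ≤ f.h →
        f.L * √(uu (nrm (volM V F)) (co b N))
          ≤ f.K * hh (nrm (volM V F)) (diagonal j) (co b F) (co b N) + f.R) :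
    H176.NearOut V F N b j p.gp p.h1 p.d1 := by
  subst hmm
  by_cases hcase : 2 * lamM (finrank ℝ V) * (sphereVol (finrank ℝ V) / (volM V F).real univ)
      + p.gp ≤ 1
  · exact Or.inl hcase
  refine Or.inr ?_
  push Not at hcase
  have hpmR : (p.m : ℝ) = (finrank ℝ V : ℝ) := by
    rw [hpm]
    push_cast
    rfl
  have huu : uu (nrm (volM V F)) (co b N) = ∑ i, m1 (nrm (volM V F)) (co b N) i ^ 2 := rfl
  have hQ : momQ p.m k ≤ Q := by
    simp only [nearT, Bool.and_eq_true, decide_eq_true_eq] at hok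
    exact hok.1.2
  have H : NearHypT (nrm (volM V F)) p k Q laws els (co b F) (co b N) j
      (finrank ℝ V * rM (finrank ℝ V) 0)
      (finrank ℝ V * (finrank ℝ V + 1) * EM (finrank ℝ V) 1) := by
    refine ⟨by rw [hpmR]; exact hd.t0, hd.lsq, hγ, hEL, hE, hd.mean.le.trans hν,
      moments hW hF hmin hd.smooth hd.unit b hd.t0.prob hpm hQ, ?_, hel⟩
    intro q hq hdq hh1
    obtain ⟨W0, W1, τ, k1, k2, k3, k4, k5⟩ := hl.main q hq hdq hh1
    refine ⟨W0, W1, τ, k1, k2, k3, k4, ?_⟩
    unfold XL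
    rw [wQ_cast, hpmR, huu]
    linarith
  obtain ⟨WU, τU, u1, u2, u3⟩ := hl.crude
  obtain ⟨τV, v1, v2⟩ := hl.first
  exact nearT_sound hok H u1 u2 v1 (by rw [hpmR, huu]; linarith)
    (by unfold XL; rw [wQ_cast, hpmR, huu]; linarith)

end

end Vale.Agent.P224.R2.H807
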