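import Vale.Agent.P224.R2.H925.GBlk
import Vale.Agent.P224.R2.H807.Net

/-!
The near range of one dimension for any admissible threshold function, with the table that uses
the small factor of the third moments.
-/

namespace Vale.Agent.P224.R2.H807

open MeasureTheory Set Filter Function Real Module Matrix Vale.Agent.P224
  Vale.Agent.P224.R2.H820 Vale.Agent.P224.R2.H582 Vale.Agent.P224.R2.H627
  Vale.Agent.P224.R2.H728 Vale.Agent.P224.R2.H484 Vale.Agent.P224.R2.H925
open Vale.Agent.P224.SM2 hiding ker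
open Vale.Agent.P224.R2.H176 (NearData NearOut)
open scoped Topology RealInnerProductSpace ContDiff Manifold

set_option linter.unusedSectionVars false

/-- a fact of the first form as an affine fact -/
def ofQ (f : ElQ) : ElT where
  d := f.d
  ha := 0
  h := f.h
  K := f.K
  L := f.L
  R := 0

/-- an entry for one dimension -/
structure EntT where
  m : ℕ
  nums : List NumE
  p : ParQ
  k : ℕ
  M : ℚ
  laws : List LawQ
  els : List (ElQ × ℚ × ℚ)
  cols : List ColT

/-- the entry is checked -/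
def entT (B : BlkQ) (e : EntT) : Bool :=
  inOK B e.m e.nums e.p e.laws && e7All e.p.m e.els
    && nearT e.p e.k e.M e.laws (e.els.map fun f => ofQ f.1) e.cols

section

variable {V W M : Type*} [NormedAddCommGroup V] [InnerProductSpace ℝ V] [FiniteDimensional ℝ V]
  [NormedAddCommGroup W] [InnerProductSpace ℝ W] [FiniteDimensional ℝ W]
  [TopologicalSpace M] [ChartedSpace V M]
  [MeasurableSpace V] [BorelSpace V] [MeasurableSpace M] [BorelSpace M]
  [MeasurableSpace W] [BorelSpace W] [IsManifold 𝓘(ℝ, V) ∞ M]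
  [CompactSpace M] [T2Space M]

/-- an affine fact on the mean normal -/
def ElFact (V : Type*) {W M : Type*} [NormedAddCommGroup V] [InnerProductSpace ℝ V]
    [FiniteDimensional ℝ V] [MeasurableSpace V] [BorelSpace V] [NormedAddCommGroup W]
    [InnerProductSpace ℝ W] [FiniteDimensional ℝ W] [TopologicalSpace M] [ChartedSpace V M]
    [MeasurableSpace M] (F N : M → W) (b : OrthonormalBasis (Fin (finrank ℝ W)) ℝ W)
    (j : Fin (finrank ℝ W) → ℝ) (f : ElT) : Prop :=
  √(fro (De (nrm (volM V F)) (co b F) (co b N))) ≤ f.d →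
    (f.ha : ℝ) ≤ hh (nrm (volM V F)) (diagonal j) (co b F) (co b N) →
    hh (nrm (volM V F)) (diagonal j) (co b F) (co b N) ≤ f.h →
    f.L * √(uu (nrm (volM V F)) (co b N))
      ≤ f.K * hh (nrm (volM V F)) (diagonal j) (co b F) (co b N) + f.R

/-- **the near range of one dimension** from the instances of the law and a list of affine facts
on the mean normal -/
theorem near_T {B : BlkQ} {m : ℕ} {p : ParQ} {k : ℕ} {Q : ℚ}
    {laws : List LawQ} {els : List ElT} {cols : List ColT} (h17 : 17 ≤ m)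
    (hpar : parE B m p = true) (hok : nearT p k Q laws els cols = true)
    (hmm : m = finrank ℝ V) (hW : finrank ℝ W = finrank ℝ V + 2)
    {F : M → W} (hF : SphImm V F) (hmin : ∀ x n, IsUnitNormal V F x n → meanCurv V F x n = 0)
    {ν : ℝ} (hν : ν ≤ p.ν) {N : M → W} {b : OrthonormalBasis (Fin (finrank ℝ W)) ℝ W}
    {j : Fin (finrank ℝ W) → ℝ} (hd : NearData V F N b j ν)
    (hlaw : LawIn V F N m p laws b j) (hel : ∀ f ∈ els, ElFact V F N b j f) :
    NearOut V F N b j p.gp p.h1 p.d1 := by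
  simp only [parE, Bool.and_eq_true, decide_eq_true_eq] at hpar
  obtain ⟨⟨⟨⟨⟨c1, c2⟩, c3⟩, -⟩, -⟩, -⟩ := hpar
  obtain ⟨n1, n2⟩ := chkE_sound h17 c2
  have n3 := (le_gq2 h17).trans (castQ c3)
  exact nearOutT_of hW hF hmin hmm hok c1 n3 n1 n2 hν hd hlaw hel

/-- the first facts on the mean normal -/
theorem e7_facts {m : ℚ} {l : List (ElQ × ℚ × ℚ)} (hok : e7All m l = true)
    {F N : M → W} {b : OrthonormalBasis (Fin (finrank ℝ W)) ℝ W} {j : Fin (finrank ℝ W) → ℝ}
    (h : T0Data (nrm (volM V F)) (m : ℝ) (co b F) (co b N))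
    (hL : LSq (nrm (volM V F)) (diagonal j) (co b F) (co b N)) :
    ∀ f ∈ l.map fun f => ofQ f.1, ElFact V F N b j f := by
  intro f hf hd _ hh1
  obtain ⟨g, hg, rfl⟩ := List.mem_map.1 hf
  have h1 := e7All_sound l hok h hL g.1 (List.mem_map_of_mem hg) hd hh1
  have e1 : ((ofQ g.1).R : ℝ) = 0 := by
    unfold ofQ
    push_cast
    rfl
  rw [e1, add_zero]
  exact h1

/-- **the near range of one dimension** from a checked entry -/
theorem near_entT [Nonempty M] {B : BlkQ} {e : EntT} (he : entT B e = true)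
    (hmm : e.m = finrank ℝ V) (hW : finrank ℝ W = finrank ℝ V + 2)
    {F : M → W} (hF : SphImm V F) (hmin : ∀ x n, IsUnitNormal V F x n → meanCurv V F x n = 0)
    {lam : ℝ → ℝ} (hfr : Fra e.m lam (beM e.m) B.t1)
    (hl : ∀ T ∈ Ioo (0 : ℝ) (3 / 10), (1 - T ^ 2) * lam T ≤ 94 / 5)
    (hla : ∀ T ∈ Ioo (0 : ℝ) B.t1, lam T ≤ pe B.la 0 T)
    (hlb : ∀ T ∈ Ioo (0 : ℝ) B.t1, pe B.lb 0 T ≤ lam T) {ν : ℝ} (hν : ν ≤ e.p.ν)
    (ht : ∀ (N : M → W) (b : OrthonormalBasis (Fin (finrank ℝ W)) ℝ W)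
      (j : Fin (finrank ℝ W) → ℝ), NearData V F N b j ν → TailB V F N e.m lam b j B)
    (N : M → W) (b : OrthonormalBasis (Fin (finrank ℝ W)) ℝ W) (j : Fin (finrank ℝ W) → ℝ)
    (hd : NearData V F N b j ν) : NearOut V F N b j e.p.gp e.p.h1 e.p.d1 := by
  simp only [entT, Bool.and_eq_true] at he
  obtain ⟨⟨hin, hels⟩, hok⟩ := he
  have hlaw := lawIn_blk hin hmm hW hF hmin hfr hl hla hlb hd.smooth hd.unit hd.inj b j hd.t0
    hd.lsq (ht N b j hd)
  simp only [inOK, Bool.and_eq_true, decide_eq_true_eq] at hin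
  obtain ⟨⟨⟨⟨⟨h17, -⟩, -⟩, hpar⟩, -⟩, -⟩ := hin
  have c1 : e.p.m = e.m := by
    simp only [parE, Bool.and_eq_true, decide_eq_true_eq] at hpar
    exact hpar.1.1.1.1.1
  have hpmR : (e.p.m : ℝ) = (finrank ℝ V : ℝ) := by
    rw [c1, ← hmm]
    push_cast
    rfl
  exact near_T h17 hpar hok hmm hW hF hmin hν hd hlaw
    (e7_facts hels (by rw [hpmR]; exact hd.t0) hd.lsq)

end

end Vale.Agent.P224.R2.H807
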